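import Mathlib

/-!
One variable facts (Jensen) for the T-lemma: for `f` analytic near a closed disc and
`lg c w = log (max ‖w‖ c)`, the circle average of `lg c ∘ f` is at least `lg c (f a)`, and it is
at least `log ‖f a‖ + log (1/|v|)` if `f` has a zero at `v` in the unit disc.
-/

open Metric Set Filter MeasureTheory Real
open scoped Topology

namespace Vale.Agent.P097.H185.TL

/-- truncated logarithm of the modulus -/
noncomputable def lg (c : ℝ) (w : ℂ) : ℝ := Real.log (max ‖w‖ c)

lemma lg_continuous {c : ℝ} (hc : 0 < c) : Continuous (lg c) := by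
  unfold lg
  refine Continuous.log (by fun_prop) fun w => ?_
  exact (lt_of_lt_of_le hc (le_max_right _ _)).ne'

lemma log_le_lg {c : ℝ} {w : ℂ} (hw : w ≠ 0) : Real.log ‖w‖ ≤ lg c w :=
  Real.log_le_log (norm_pos_iff.2 hw) (le_max_left _ _)

lemma logc_le_lg {c : ℝ} {w : ℂ} (hc : 0 < c) : Real.log c ≤ lg c w :=
  Real.log_le_log hc (le_max_right _ _)

lemma lg_mono {c d : ℝ} {w : ℂ} (hc : 0 < c) (hcd : c ≤ d) : lg c w ≤ lg d w :=
  Real.log_le_log (lt_of_lt_of_le hc (le_max_right _ _)) (max_le_max le_rfl hcd)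

lemma lg_circleIntegrable {c : ℝ} (hc : 0 < c) {f : ℂ → ℂ} {a : ℂ} {R : ℝ}
    (hf : ContinuousOn f (closedBall a |R|)) : CircleIntegrable (fun z => lg c (f z)) a R := by
  apply ContinuousOn.circleIntegrable'
  exact (lg_continuous hc).comp_continuousOn (hf.mono sphere_subset_closedBall)

lemma circ_log_le_lg {f : ℂ → ℂ} {c : ℝ} {a : ℂ} {R : ℝ} (hc : 0 < c) (hR : R ≠ 0)
    (hf : AnalyticOnNhd ℂ f (closedBall a |R|)) (h0 : f a ≠ 0) :
    circleAverage (fun z => Real.log ‖f z‖) a R ≤ circleAverage (fun z => lg c (f z)) a R := by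
  classical
  set g : ℂ → ℝ := fun z => if f z = 0 then Real.log c else Real.log ‖f z‖ with hg
  have hcd : f ⁻¹' {0}ᶜ ∈ codiscreteWithin (sphere a |R|) := by
    have h1 := hf.preimage_zero_mem_codiscreteWithin h0 (by simp)
      ⟨nonempty_closedBall.mpr (abs_nonneg R), (convex_closedBall a |R|).isPreconnected⟩
    exact Filter.codiscreteWithin_mono sphere_subset_closedBall h1
  have heq : (fun z => Real.log ‖f z‖) =ᶠ[codiscreteWithin (sphere a |R|)] g := by
    filter_upwards [hcd] with z hz
    have hz' : f z ≠ 0 := by simpa using hz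
    simp [hg, hz']
  have hint : CircleIntegrable (fun z => Real.log ‖f z‖) a R :=
    MeromorphicOn.circleIntegrable_log_norm
      (fun z hz => (hf z (sphere_subset_closedBall hz)).meromorphicAt)
  have hgint : CircleIntegrable g a R := hint.congr_codiscreteWithin heq
  rw [circleAverage_congr_codiscreteWithin heq hR]
  refine circleAverage_mono hgint (lg_circleIntegrable hc hf.continuousOn) fun z _ => ?_
  by_cases hz : f z = 0
  · simp only [hg, hz, if_true]; exact logc_le_lg hc
  · simp only [hg, hz, if_false]; exact log_le_lg hz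

/-- the truncated logarithm of an analytic function is submean -/
theorem lg_le_circ {f : ℂ → ℂ} {c : ℝ} {a : ℂ} {R : ℝ} (hc : 0 < c)
    (hf : AnalyticOnNhd ℂ f (closedBall a |R|)) :
    lg c (f a) ≤ circleAverage (fun z => lg c (f z)) a R := by
  by_cases hR : R = 0
  · subst hR; simp [circleAverage_zero]
  rcases le_or_gt ‖f a‖ c with h | h
  · have h1 : lg c (f a) = Real.log c := by unfold lg; rw [max_eq_right h]
    rw [h1]
    have h2 : circleAverage (fun _ : ℂ => Real.log c) a R ≤
        circleAverage (fun z => lg c (f z)) a R := by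
      refine circleAverage_mono ?_ (lg_circleIntegrable hc hf.continuousOn)
        fun z _ => logc_le_lg hc
      exact circleIntegrable_const _ _ _
    rwa [circleAverage_const] at h2
  · have h0 : f a ≠ 0 := by
      intro h0; rw [h0, norm_zero] at h; linarith
    have h1 : lg c (f a) = Real.log ‖f a‖ := by unfold lg; rw [max_eq_left h.le]
    rw [h1]
    refine le_trans ?_ (circ_log_le_lg hc hR hf h0)
    rw [hf.circleAverage_log_norm hR h0]
    have hnn : 0 ≤ ∑ᶠ u, (MeromorphicOn.divisor f (closedBall a |R|)) u *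
        Real.log (R * ‖a - u‖⁻¹) := by
      refine finsum_nonneg fun u => ?_
      by_cases hu : u ∈ closedBall a |R|
      · refine mul_nonneg ?_ ?_
        · have := MeromorphicOn.AnalyticOnNhd.divisor_nonneg hf
          exact_mod_cast this u
        · rw [← Real.log_abs, abs_mul, abs_inv, abs_norm]
          by_cases hau : a - u = 0
          · simp [hau]
          · apply Real.log_nonneg
            have h3 : 0 < ‖a - u‖ := norm_pos_iff.2 hau
            rw [← div_eq_mul_inv, le_div_iff₀ h3, one_mul]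
            rw [mem_closedBall, dist_comm, dist_eq_norm] at hu
            exact hu
      · simp [Function.locallyFinsuppWithin.apply_eq_zero_of_notMem _ hu]
    linarith

/-- Jensen's lower bound with a zero `v` in the unit disc -/
theorem circ_ge_of_zero {f : ℂ → ℂ} {c : ℝ} {v : ℂ} (hc : 0 < c)
    (hf : AnalyticOnNhd ℂ f (closedBall 0 1)) (h0 : f 0 ≠ 0) (hv : ‖v‖ < 1) (hfv : f v = 0) :
    Real.log ‖f 0‖ + Real.log (‖v‖⁻¹) ≤ circleAverage (fun z => lg c (f z)) 0 1 := by
  have hf' : AnalyticOnNhd ℂ f (closedBall 0 |(1:ℝ)|) := by simpa using hf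
  refine le_trans ?_ (circ_log_le_lg hc one_ne_zero hf' h0)
  rw [hf'.circleAverage_log_norm one_ne_zero h0]
  set D := MeromorphicOn.divisor f (closedBall (0:ℂ) |(1:ℝ)|) with hD
  have hDnn : 0 ≤ D := MeromorphicOn.AnalyticOnNhd.divisor_nonneg hf'
  have hfin : D.support.Finite := D.finiteSupport (isCompact_closedBall _ _)
  have hvmem : v ∈ closedBall (0:ℂ) |(1:ℝ)| := by
    rw [mem_closedBall_zero_iff, abs_one]; exact hv.le
  have hv0 : v ≠ 0 := fun h => h0 (h ▸ hfv)
  have hDv : (1 : ℝ) ≤ D v := by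
    have h1 : D v ≠ 0 := by
      rw [hD, MeromorphicOn.AnalyticOnNhd.divisor_apply hf' hvmem]
      have h2 : analyticOrderAt f v ≠ 0 := by
        rw [Ne, (hf' v hvmem).analyticOrderAt_eq_zero]; simp [hfv]
      have h3 : analyticOrderAt f v ≠ ⊤ := by
        intro htop
        have hev : ∀ᶠ z in 𝓝 v, f z = 0 := analyticOrderAt_eq_top.1 htop
        have := hf'.eqOn_zero_of_preconnected_of_eventuallyEq_zero
          (convex_closedBall (0:ℂ) |(1:ℝ)|).isPreconnected hvmem hev
        exact h0 (this (by simp))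
      obtain ⟨n, hn⟩ := ENat.ne_top_iff_exists.1 h3
      rw [← hn] at h2 ⊢
      have h4 : n ≠ 0 := by
        intro h5; apply h2; rw [h5]; rfl
      simpa using h4
    have h2 : 0 ≤ D v := hDnn v
    have h3 : 1 ≤ D v := by omega
    exact_mod_cast h3
  have hsum : Real.log (‖v‖⁻¹) ≤ ∑ᶠ u, (D u : ℝ) * Real.log (1 * ‖0 - u‖⁻¹) := by
    have hterm : ∀ u, 0 ≤ (D u : ℝ) * Real.log (1 * ‖0 - u‖⁻¹) := by
      intro u
      by_cases hu : u ∈ closedBall (0:ℂ) |(1:ℝ)|
      · refine mul_nonneg (by exact_mod_cast hDnn u) ?_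
        by_cases hu0 : u = 0
        · simp [hu0]
        · rw [one_mul, zero_sub, norm_neg]
          apply Real.log_nonneg
          have h3 : 0 < ‖u‖ := norm_pos_iff.2 hu0
          rw [mem_closedBall_zero_iff, abs_one] at hu
          exact (one_le_inv₀ h3).2 hu
      · simp [Function.locallyFinsuppWithin.apply_eq_zero_of_notMem _ hu]
    have hfin2 : (Function.support fun u => (D u : ℝ) * Real.log (1 * ‖0 - u‖⁻¹)).Finite := by
      refine hfin.subset fun u hu => ?_
      rw [Function.mem_support] at hu ⊢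
      intro h; apply hu; simp [h]
    have h1 : (D v : ℝ) * Real.log (1 * ‖0 - v‖⁻¹) ≤
        ∑ᶠ u, (D u : ℝ) * Real.log (1 * ‖0 - u‖⁻¹) :=
      single_le_finsum v hfin2 hterm
    have h2 : 0 ≤ Real.log (‖v‖⁻¹) :=
      Real.log_nonneg ((one_le_inv₀ (norm_pos_iff.2 hv0)).2 hv.le)
    rw [one_mul, zero_sub, norm_neg] at h1
    nlinarith
  linarith

end Vale.Agent.P097.H185.TL
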