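import Vale.Agent.P097.H185.TLA

/-!
Circle averages and Fubini; the mean inequality on sup-norm balls of `ℂ × ℂ` by averaging over
the rotations `z ↦ e^{iθ} z` (no polar coordinates).
-/

open Metric Set Filter MeasureTheory Real
open scoped Topology

namespace Vale.Agent.P097.H185.TL

/-- circle averages commute with integrals over compact sets -/
theorem circ_swap {E : Type*} [TopologicalSpace E] [MeasurableSpace E] [BorelSpace E] [T2Space E]
    [SecondCountableTopology E] {μ : Measure E} [IsFiniteMeasureOnCompacts μ] [SFinite μ]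
    {K : Set E} (hK : IsCompact K) {h : ℂ → E → ℝ}
    (hc : ContinuousOn (Function.uncurry h) (sphere (0:ℂ) 1 ×ˢ K)) :
    ∫ z in K, circleAverage (fun ζ => h ζ z) 0 1 ∂μ =
      circleAverage (fun ζ => ∫ z in K, h ζ z ∂μ) 0 1 := by
  have hpi : (0:ℝ) ≤ 2 * π := by positivity
  unfold circleAverage
  rw [integral_smul]
  congr 1
  simp_rw [intervalIntegral.integral_of_le hpi]
  rw [integral_integral_swap]
  have hcont : ContinuousOn (fun p : E × ℝ => h (circleMap 0 1 p.2) p.1)
      (K ×ˢ Icc (0:ℝ) (2 * π)) := by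
    have hm : ContinuousOn (fun p : E × ℝ => (circleMap 0 1 p.2, p.1)) (K ×ˢ Icc (0:ℝ) (2 * π)) :=
      (by fun_prop : Continuous fun p : E × ℝ => (circleMap 0 1 p.2, p.1)).continuousOn
    have := hc.comp hm (fun p hp => ⟨by simp, hp.1⟩)
    exact this
  have hint : IntegrableOn (fun p : E × ℝ => h (circleMap 0 1 p.2) p.1)
      (K ×ˢ Icc (0:ℝ) (2 * π)) (μ.prod volume) := by
    apply ContinuousOn.integrableOn_compact (hK.prod isCompact_Icc) hcont
  have hint2 := hint.mono_set (Set.prod_mono (le_refl K) Ioc_subset_Icc_self)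
  rw [IntegrableOn, ← Measure.prod_restrict] at hint2
  exact hint2

/-- two circle averages commute -/
theorem circ_circ {h : ℂ → ℂ → ℝ}
    (hc : ContinuousOn (Function.uncurry h) (sphere (0:ℂ) 1 ×ˢ sphere (0:ℂ) 1)) :
    circleAverage (fun v => circleAverage (fun ζ => h ζ v) 0 1) 0 1 =
      circleAverage (fun ζ => circleAverage (fun v => h ζ v) 0 1) 0 1 := by
  have hpi : (0:ℝ) ≤ 2 * π := by positivity
  have h1 := circ_swap (μ := (volume : Measure ℝ)) (K := Icc (0:ℝ) (2 * π)) isCompact_Icc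
    (h := fun ζ θ => h ζ (circleMap 0 1 θ)) (by
      have hm : ContinuousOn (fun p : ℂ × ℝ => (p.1, circleMap 0 1 p.2))
          (sphere (0:ℂ) 1 ×ˢ Icc (0:ℝ) (2 * π)) :=
        (by fun_prop : Continuous fun p : ℂ × ℝ => (p.1, circleMap 0 1 p.2)).continuousOn
      exact hc.comp hm (fun p hp => ⟨hp.1, by simp⟩))
  have e1 : circleAverage (fun v => circleAverage (fun ζ => h ζ v) 0 1) 0 1 =
      (2 * π)⁻¹ • ∫ z in Icc (0:ℝ) (2 * π),
        circleAverage (fun ζ => h ζ (circleMap 0 1 z)) 0 1 := by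
    rw [integral_Icc_eq_integral_Ioc, ← intervalIntegral.integral_of_le hpi, circleAverage_def]
  rw [e1, h1, ← circleAverage_fun_smul]
  congr 1
  funext ζ
  rw [integral_Icc_eq_integral_Ioc, ← intervalIntegral.integral_of_le hpi, circleAverage_def]

/-- circle averages of a jointly continuous function depend continuously on the parameter -/
theorem circ_cont {X : Type*} [TopologicalSpace X] {s : Set X} {h : ℂ → X → ℝ}
    (hc : ContinuousOn (Function.uncurry h) (sphere (0:ℂ) 1 ×ˢ s)) :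
    ContinuousOn (fun x => circleAverage (fun ζ => h ζ x) 0 1) s := by
  rw [continuousOn_iff_continuous_domRestrict]
  unfold circleAverage
  have hm : Continuous (Function.uncurry fun (x : s) (θ : ℝ) => h (circleMap 0 1 θ) x) := by
    have h1 : ContinuousOn (fun p : s × ℝ => h (circleMap 0 1 p.2) p.1) univ := by
      refine hc.comp (f := fun p : s × ℝ => (circleMap 0 1 p.2, (p.1 : X))) ?_ ?_
      · exact (by fun_prop : Continuous fun p : s × ℝ => (circleMap 0 1 p.2, (p.1 : X))).continuousOn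
      · intro p _
        exact ⟨by simp, p.1.2⟩
    exact continuousOn_univ.1 h1
  have h2 := (intervalIntegral.continuous_parametric_intervalIntegral_of_continuous'
    (μ := volume) hm 0 (2 * π)).const_smul ((2 * π)⁻¹)
  exact h2

lemma vol2_haar : (volume : Measure (ℂ × ℂ)).IsAddHaarMeasure :=
  inferInstanceAs ((volume : Measure ℂ).prod volume).IsAddHaarMeasure

/-- multiplication by `e^{iθ}` preserves the volume of `ℂ × ℂ` -/
lemma rot_mp (a : Circle) :
    MeasurePreserving (fun z : ℂ × ℂ => (a : ℂ) • z) volume volume := by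
  have h1 : MeasurePreserving (fun z : ℂ => (a : ℂ) • z) volume volume := by
    have := (rotation a).measurePreserving
    exact this
  exact h1.prod h1

lemma rot_emb (a : Circle) : MeasurableEmbedding (fun z : ℂ × ℂ => (a : ℂ) • z) := by
  have h0 : (a : ℂ) ≠ 0 := Circle.coe_ne_zero a
  exact (Homeomorph.smulOfNeZero (a : ℂ) h0).measurableEmbedding

/-- rotation invariance of integrals over balls -/
lemma rot_int (a : Circle) (g : ℂ × ℂ → ℝ) (r : ℝ) :
    ∫ z in closedBall (0 : ℂ × ℂ) r, g ((a : ℂ) • z) = ∫ z in closedBall (0 : ℂ × ℂ) r, g z := by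
  have h1 := (rot_mp a).setIntegral_preimage_emb (rot_emb a) g (closedBall (0 : ℂ × ℂ) r)
  rw [← h1]
  congr 2
  ext z
  simp only [mem_closedBall_zero_iff, mem_preimage, norm_smul, Circle.norm_coe, one_mul]

/-- mean inequality on a closed sup-norm ball of `ℂ × ℂ` -/
theorem ball_mean {g : ℂ × ℂ → ℝ} {z₀ : ℂ × ℂ} {r : ℝ}
    (hg : ContinuousOn g (closedBall z₀ r))
    (hs : ∀ b ∈ closedBall (0 : ℂ × ℂ) r, g z₀ ≤ circleAverage (fun ζ : ℂ => g (z₀ + ζ • b)) 0 1) :
    (volume (closedBall z₀ r)).toReal * g z₀ ≤ ∫ z in closedBall z₀ r, g z := by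
  have := vol2_haar
  have hmem : ∀ ζ ∈ sphere (0:ℂ) 1, ∀ z ∈ closedBall (0 : ℂ × ℂ) r,
      z₀ + ζ • z ∈ closedBall z₀ r := by
    intro ζ hζ z hz
    rw [mem_sphere_zero_iff_norm] at hζ
    rw [mem_closedBall_zero_iff] at hz
    rw [mem_closedBall, dist_eq_norm, add_sub_cancel_left, norm_smul, hζ, one_mul]
    exact hz
  have hcont : ContinuousOn (Function.uncurry fun (ζ : ℂ) (z : ℂ × ℂ) => g (z₀ + ζ • z))
      (sphere (0:ℂ) 1 ×ˢ closedBall (0 : ℂ × ℂ) r) := by
    have hm : ContinuousOn (fun p : ℂ × (ℂ × ℂ) => z₀ + p.1 • p.2)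
        (sphere (0:ℂ) 1 ×ˢ closedBall (0 : ℂ × ℂ) r) := by fun_prop
    exact hg.comp hm (fun p hp => hmem p.1 hp.1 p.2 hp.2)
  have h1 : ∫ z in closedBall z₀ r, g z = ∫ z in closedBall (0 : ℂ × ℂ) r, g (z₀ + z) := by
    have h2 := (measurePreserving_add_left (volume : Measure (ℂ × ℂ)) z₀).setIntegral_preimage_emb
      (measurableEmbedding_addLeft z₀) g (closedBall z₀ r)
    rw [← h2]
    congr 2
    ext z
    simp [mem_closedBall, dist_eq_norm]
  have h2 := circ_swap (μ := (volume : Measure (ℂ × ℂ))) (isCompact_closedBall (0 : ℂ × ℂ) r) hcont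
  have h3 : circleAverage (fun ζ : ℂ => ∫ z in closedBall (0 : ℂ × ℂ) r, g (z₀ + ζ • z)) 0 1 =
      ∫ z in closedBall (0 : ℂ × ℂ) r, g (z₀ + z) := by
    have h4 : Set.EqOn (fun ζ : ℂ => ∫ z in closedBall (0 : ℂ × ℂ) r, g (z₀ + ζ • z))
        (fun _ => ∫ z in closedBall (0 : ℂ × ℂ) r, g (z₀ + z)) (sphere (0:ℂ) |(1:ℝ)|) := by
      intro ζ hζ
      rw [abs_one, mem_sphere_zero_iff_norm] at hζ
      exact rot_int ⟨ζ, mem_sphere_zero_iff_norm.2 hζ⟩ (fun z => g (z₀ + z)) r
    rw [circleAverage_congr_sphere h4, circleAverage_const]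
  rw [h1, ← h3, ← h2]
  have hvol : (volume (closedBall z₀ r)).toReal * g z₀ =
      ∫ _z in closedBall (0 : ℂ × ℂ) r, g z₀ := by
    rw [setIntegral_const, smul_eq_mul, Measure.real]
    congr 2
    rw [Measure.addHaar_closedBall_center]
  rw [hvol]
  refine setIntegral_mono_on ?_ ?_ measurableSet_closedBall fun z hz => hs z hz
  · exact (integrableOn_const (by
      exact (isCompact_closedBall (0 : ℂ × ℂ) r).measure_lt_top.ne))
  · exact (circ_cont hcont).integrableOn_compact (isCompact_closedBall _ _)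

end Vale.Agent.P097.H185.TL
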