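import Vale.Agent.P097.H185.TLB

/-!
The function `J0 S c D p`, the Jensen gap of `S` on the disc `v ↦ p + D v`, and its mean
inequality in `p`.
-/

open Metric Set Filter MeasureTheory Real
open scoped Topology

namespace Vale.Agent.P097.H185.TL

/-- real points of `ℂ × ℂ` -/
def cx (x : ℝ × ℝ) : ℂ × ℂ := ((x.1 : ℂ), (x.2 : ℂ))

@[fun_prop]
lemma cx_continuous : Continuous cx := by
  unfold cx; fun_prop

/-- Jensen gap on the disc `v ↦ p + D v` -/
noncomputable def J0 (S : ℂ × ℂ → ℂ) (c : ℝ) (D : ℂ → ℂ × ℂ) (p : ℂ × ℂ) : ℝ :=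
  circleAverage (fun v => lg c (S (p + D v))) 0 1 - Real.log ‖S (p + D 0)‖

/-- centres `p` of admissible discs -/
def Adm (S : ℂ × ℂ → ℂ) (U : Set (ℂ × ℂ)) (D : ℂ → ℂ × ℂ) : Set (ℂ × ℂ) :=
  {p | (∀ v ∈ closedBall (0:ℂ) 1, p + D v ∈ U) ∧ S (p + D 0) ≠ 0}

/-- data of a disc -/
structure Dat (S : ℂ × ℂ → ℂ) (U : Set (ℂ × ℂ)) (D : ℂ → ℂ × ℂ) (O : Set ℂ) : Prop where
  hU : IsOpen U
  hS : DifferentiableOn ℂ S U
  hO : IsOpen O
  hD : DifferentiableOn ℂ D O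
  hsub : closedBall (0:ℂ) 1 ⊆ O

variable {S : ℂ × ℂ → ℂ} {U : Set (ℂ × ℂ)} {D : ℂ → ℂ × ℂ} {O : Set ℂ} {c : ℝ}

lemma Dat.an_v (h : Dat S U D O) {p : ℂ × ℂ} (hp : p ∈ Adm S U D) :
    AnalyticOnNhd ℂ (fun v => S (p + D v)) (closedBall (0:ℂ) 1) := by
  have hc : ContinuousOn (fun v => p + D v) O := by
    have := h.hD.continuousOn; fun_prop
  have ho : IsOpen (O ∩ (fun v => p + D v) ⁻¹' U) := hc.isOpen_inter_preimage h.hO h.hU
  have hd : DifferentiableOn ℂ (fun v => S (p + D v)) (O ∩ (fun v => p + D v) ⁻¹' U) := by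
    refine h.hS.comp (f := fun v => p + D v) ?_ (fun v hv => hv.2)
    exact (h.hD.mono inter_subset_left).const_add p
  exact fun v hv => hd.analyticAt (ho.mem_nhds ⟨h.hsub hv, hp.1 v hv⟩)

lemma Dat.an_p (h : Dat S U D O) {p₀ b : ℂ × ℂ} {v : ℂ}
    (hp : ∀ ζ ∈ closedBall (0:ℂ) 1, p₀ + ζ • b + D v ∈ U) :
    AnalyticOnNhd ℂ (fun ζ : ℂ => S (p₀ + ζ • b + D v)) (closedBall (0:ℂ) 1) := by
  have hc : Continuous (fun ζ : ℂ => p₀ + ζ • b + D v) := by fun_prop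
  have ho : IsOpen ((fun ζ : ℂ => p₀ + ζ • b + D v) ⁻¹' U) := h.hU.preimage hc
  have hd : DifferentiableOn ℂ (fun ζ : ℂ => S (p₀ + ζ • b + D v))
      ((fun ζ : ℂ => p₀ + ζ • b + D v) ⁻¹' U) := by
    refine h.hS.comp (f := fun ζ : ℂ => p₀ + ζ • b + D v) ?_ (fun v hv => hv)
    fun_prop
  exact fun ζ hζ => hd.analyticAt (ho.mem_nhds (hp ζ hζ))

lemma Dat.cont_lg (h : Dat S U D O) (hc : 0 < c) :
    ContinuousOn (Function.uncurry fun (v : ℂ) (p : ℂ × ℂ) => lg c (S (p + D v)))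
      (closedBall (0:ℂ) 1 ×ˢ Adm S U D) := by
  have h1 : ContinuousOn (fun q : ℂ × (ℂ × ℂ) => q.2 + D q.1) (closedBall (0:ℂ) 1 ×ˢ Adm S U D) := by
    refine continuous_snd.continuousOn.add ?_
    exact (h.hD.continuousOn.mono h.hsub).comp continuous_fst.continuousOn (fun q hq => hq.1)
  exact (lg_continuous hc).comp_continuousOn
    (h.hS.continuousOn.comp h1 (fun q hq => hq.2.1 q.1 hq.1))

lemma Dat.cont_log (h : Dat S U D O) :
    ContinuousOn (fun p : ℂ × ℂ => Real.log ‖S (p + D 0)‖) (Adm S U D) := by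
  have h1 : ContinuousOn (fun p : ℂ × ℂ => p + D 0) (Adm S U D) := by fun_prop
  have h2 := (h.hS.continuousOn.comp h1 (fun q hq => hq.1 0 (by simp))).norm
  exact h2.log (fun q hq => norm_ne_zero_iff.2 hq.2)

lemma Dat.cont_J0 (h : Dat S U D O) (hc : 0 < c) : ContinuousOn (J0 S c D) (Adm S U D) := by
  unfold J0
  refine ContinuousOn.sub ?_ h.cont_log
  exact circ_cont ((h.cont_lg hc).mono (prod_mono sphere_subset_closedBall (le_refl _)))

lemma Dat.J0_nonneg (h : Dat S U D O) (hc : 0 < c) {p : ℂ × ℂ} (hp : p ∈ Adm S U D) :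
    0 ≤ J0 S c D p := by
  have h1 := lg_le_circ (R := 1) hc (f := fun v => S (p + D v)) (a := 0) (by
    simpa using h.an_v hp)
  have h2 := log_le_lg (c := c) hp.2
  unfold J0
  linarith

lemma Dat.J0_zero (h : Dat S U D O) (hc : 0 < c) {p : ℂ × ℂ} (hp : p ∈ Adm S U D) {v : ℂ}
    (hv : ‖v‖ < 1) (h0 : S (p + D v) = 0) : Real.log (‖v‖⁻¹) ≤ J0 S c D p := by
  have h1 := circ_ge_of_zero hc (h.an_v hp) hp.2 hv h0
  unfold J0
  linarith

lemma Dat.J0_mean (h : Dat S U D O) (hc : 0 < c) {p₀ : ℂ × ℂ} {r : ℝ} (hr : 0 ≤ r)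
    (hp : closedBall p₀ r ⊆ Adm S U D) :
    (volume (closedBall p₀ r)).toReal * J0 S c D p₀ ≤ ∫ p in closedBall p₀ r, J0 S c D p := by
  refine ball_mean ((h.cont_J0 hc).mono hp) fun b hb => ?_
  have hmem : ∀ ζ ∈ closedBall (0:ℂ) 1, p₀ + ζ • b ∈ closedBall p₀ r := by
    intro ζ hζ
    rw [mem_closedBall_zero_iff] at hζ hb
    rw [mem_closedBall, dist_eq_norm, add_sub_cancel_left, norm_smul]
    calc ‖ζ‖ * ‖b‖ ≤ 1 * r := by gcongr
      _ = r := one_mul r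
  have hA : ∀ ζ ∈ closedBall (0:ℂ) 1, p₀ + ζ • b ∈ Adm S U D := fun ζ hζ => hp (hmem ζ hζ)
  have hline : ContinuousOn (fun ζ : ℂ => p₀ + ζ • b) (sphere (0:ℂ) 1) := by fun_prop
  -- the two circle averages
  have hcc : ContinuousOn (Function.uncurry fun (ζ v : ℂ) => lg c (S (p₀ + ζ • b + D v)))
      (sphere (0:ℂ) 1 ×ˢ sphere (0:ℂ) 1) := by
    have hm : ContinuousOn (fun q : ℂ × ℂ => (q.2, p₀ + q.1 • b))
        (sphere (0:ℂ) 1 ×ˢ sphere (0:ℂ) 1) := by fun_prop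
    have hmt : MapsTo (fun q : ℂ × ℂ => (q.2, p₀ + q.1 • b))
        (sphere (0:ℂ) 1 ×ˢ sphere (0:ℂ) 1) (closedBall (0:ℂ) 1 ×ˢ Adm S U D) :=
      fun q hq => ⟨sphere_subset_closedBall hq.2, hA _ (sphere_subset_closedBall hq.1)⟩
    have h1 := (h.cont_lg hc).comp hm hmt
    exact h1
  have hint1 : CircleIntegrable
      (fun ζ : ℂ => circleAverage (fun v => lg c (S (p₀ + ζ • b + D v))) 0 1) 0 1 := by
    apply ContinuousOn.circleIntegrable'
    have h1 := circ_cont ((h.cont_lg hc).mono (prod_mono sphere_subset_closedBall (le_refl _)))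
    rw [abs_one]
    exact h1.comp hline (fun ζ hζ => hA ζ (sphere_subset_closedBall hζ))
  have hint2 : CircleIntegrable (fun ζ : ℂ => Real.log ‖S (p₀ + ζ • b + D 0)‖) 0 1 := by
    apply ContinuousOn.circleIntegrable'
    rw [abs_one]
    exact h.cont_log.comp hline (fun ζ hζ => hA ζ (sphere_subset_closedBall hζ))
  have e1 : circleAverage (fun ζ : ℂ => J0 S c D (p₀ + ζ • b)) 0 1 =
      circleAverage (fun ζ : ℂ => circleAverage (fun v => lg c (S (p₀ + ζ • b + D v))) 0 1) 0 1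
        - circleAverage (fun ζ : ℂ => Real.log ‖S (p₀ + ζ • b + D 0)‖) 0 1 := by
    unfold J0
    exact circleAverage_fun_sub hint1 hint2
  have e2 : circleAverage (fun ζ : ℂ => Real.log ‖S (p₀ + ζ • b + D 0)‖) 0 1 =
      Real.log ‖S (p₀ + D 0)‖ := by
    have h1 : AnalyticOnNhd ℂ (fun ζ : ℂ => S (p₀ + ζ • b + D 0)) (closedBall (0:ℂ) |(1:ℝ)|) := by
      rw [abs_one]
      exact h.an_p (fun ζ hζ => (hA ζ hζ).1 0 (by simp))
    have h2 := h1.circleAverage_log_norm_of_ne_zero (by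
      intro ζ hζ; rw [abs_one] at hζ; exact (hA ζ hζ).2)
    simpa using h2
  have e3 : circleAverage (fun v : ℂ => lg c (S (p₀ + D v))) 0 1 ≤
      circleAverage (fun ζ : ℂ => circleAverage (fun v => lg c (S (p₀ + ζ • b + D v))) 0 1) 0 1 := by
    rw [← circ_circ hcc]
    refine circleAverage_mono ?_ ?_ ?_
    · apply ContinuousOn.circleIntegrable'
      rw [abs_one]
      have hm : ContinuousOn (fun v : ℂ => (v, p₀)) (sphere (0:ℂ) 1) := by fun_prop
      refine (h.cont_lg hc).comp hm (fun v hv => ⟨sphere_subset_closedBall hv, ?_⟩)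
      exact hp (mem_closedBall_self hr)
    · apply ContinuousOn.circleIntegrable'
      rw [abs_one]
      exact circ_cont hcc
    · intro v hv
      rw [abs_one] at hv
      have h1 := lg_le_circ (R := 1) hc (f := fun ζ : ℂ => S (p₀ + ζ • b + D v)) (a := 0) (by
        rw [abs_one]
        exact h.an_p (fun ζ hζ => (hA ζ hζ).1 v (sphere_subset_closedBall hv)))
      simpa using h1
  rw [e1, e2]
  unfold J0
  linarith

end Vale.Agent.P097.H185.TL
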