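import Vale.Agent.P097.H185.TLD

/-!
The T-lemma from (T2) and (T3).  `K1 ⊆ K2` open cones of `ℝ × ℝ`, `K2` convex, `S` holomorphic on
`TT K2 = ℝ² + i K2`, zero free on `TT K1`.  If near the edge the weighted mean values of
`log max (|S|, c)` over real translations are at most `L + ε` on `K2` and those of `log |S|` are at
least `L - ε` on `K1`, then for every compact `W ⊆ TT K2` and all small `ρ > 0` there is a real
translation `x'` in the unit square such that `S` has no zero on `x' + ρ W`.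
-/

open Metric Set Filter MeasureTheory Real
open scoped Topology

namespace Vale.Agent.P097.H185.TL

/-- imaginary part of a point of `ℂ × ℂ` -/
def im2 (z : ℂ × ℂ) : ℝ × ℝ := (z.1.im, z.2.im)

/-- real part of a point of `ℂ × ℂ` -/
def re2 (z : ℂ × ℂ) : ℝ × ℝ := (z.1.re, z.2.re)

/-- `i Y` -/
def ii (Y : ℝ × ℝ) : ℂ × ℂ := ((Y.1 : ℂ) * Complex.I, (Y.2 : ℂ) * Complex.I)

/-- the tube over `K` -/
def TT (K : Set (ℝ × ℝ)) : Set (ℂ × ℂ) := {z | im2 z ∈ K}

@[fun_prop]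
lemma im2_continuous : Continuous im2 := by unfold im2; fun_prop

@[fun_prop]
lemma re2_continuous : Continuous re2 := by unfold re2; fun_prop

lemma re_im (z : ℂ × ℂ) : cx (re2 z) + ii (im2 z) = z := by
  unfold cx re2 ii im2
  ext <;> simp

lemma im2_add (z w : ℂ × ℂ) : im2 (z + w) = im2 z + im2 w := by
  unfold im2; ext <;> simp

lemma im2_cx (x : ℝ × ℝ) : im2 (cx x) = 0 := by
  unfold im2 cx; ext <;> simp

lemma im2_smul (r : ℝ) (z : ℂ × ℂ) : im2 ((r : ℂ) • z) = r • im2 z := by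
  unfold im2; ext <;> simp

lemma re2_smul (r : ℝ) (z : ℂ × ℂ) : re2 ((r : ℂ) • z) = r • re2 z := by
  unfold re2; ext <;> simp

lemma cx_smul (r : ℝ) (x : ℝ × ℝ) : cx (r • x) = (r : ℂ) • cx x := by
  unfold cx; ext <;> simp

lemma im2_ii (Y : ℝ × ℝ) : im2 (ii Y) = Y := by
  unfold im2 ii; ext <;> simp

lemma im2_smul_ii (t : ℂ) (Y : ℝ × ℝ) : im2 (t • ii Y) = t.re • Y := by
  unfold im2 ii; ext <;> simp [mul_comm]

lemma norm_im2_le (z : ℂ × ℂ) : ‖im2 z‖ ≤ ‖z‖ := by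
  unfold im2
  rw [Prod.norm_def, Prod.norm_def]
  exact max_le_max (by simpa using Complex.abs_im_le_norm z.1)
    (by simpa using Complex.abs_im_le_norm z.2)

lemma norm_re2_le (z : ℂ × ℂ) : ‖re2 z‖ ≤ ‖z‖ := by
  unfold re2
  rw [Prod.norm_def, Prod.norm_def]
  exact max_le_max (by simpa using Complex.abs_re_le_norm z.1)
    (by simpa using Complex.abs_re_le_norm z.2)

/-! ### the Moebius disc -/

/-- Moebius map of the closed unit disc onto the disc with diameter `[-e, 1 + e]` -/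
noncomputable def tau (α : ℝ) (v : ℂ) : ℂ :=
  ((1 - α ^ 2) / (2 * α ^ 2) : ℝ) * ((1 - (α : ℂ) * v)⁻¹ - 1)

lemma tau_zero (α : ℝ) : tau α 0 = 0 := by simp [tau]

lemma one_sub_ne {α : ℝ} (h0 : 0 < α) {v : ℂ} (hv : ‖v‖ < α⁻¹) : 1 - (α : ℂ) * v ≠ 0 := by
  intro h
  have h1 : (α : ℂ) * v = 1 := by linear_combination -h
  have h2 : ‖(α : ℂ) * v‖ = 1 := by rw [h1]; simp
  rw [norm_mul, Complex.norm_real, Real.norm_eq_abs, abs_of_pos h0] at h2
  have h3 : α * ‖v‖ < α * α⁻¹ := by gcongr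
  rw [mul_inv_cancel₀ h0.ne'] at h3
  linarith

lemma tau_diff {α : ℝ} (h0 : 0 < α) : DifferentiableOn ℂ (tau α) (ball 0 α⁻¹) := by
  intro v hv
  rw [mem_ball_zero_iff] at hv
  have h1 := one_sub_ne h0 hv
  unfold tau
  have : DifferentiableAt ℂ (fun v : ℂ => (((1 - α ^ 2) / (2 * α ^ 2) : ℝ) : ℂ) *
      ((1 - (α : ℂ) * v)⁻¹ - 1)) v := by
    fun_prop (disch := assumption)
  exact this.differentiableWithinAt

lemma re_inv_bounds {u : ℂ} {α : ℝ} (h0 : 0 < α) (h1 : α < 1) (hu : ‖u‖ ≤ α) :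
    1 / (1 + α) ≤ ((1 - u)⁻¹).re ∧ ((1 - u)⁻¹).re ≤ 1 / (1 - α) := by
  have hx : |u.re| ≤ α := (Complex.abs_re_le_norm u).trans hu
  have hx' := abs_le.1 hx
  have hn : u.re ^ 2 + u.im ^ 2 ≤ α ^ 2 := by
    have h2 : ‖u‖ ^ 2 ≤ α ^ 2 := by gcongr
    rw [← Complex.normSq_eq_norm_sq, Complex.normSq_apply] at h2
    nlinarith
  have hns : Complex.normSq (1 - u) = (1 - u.re) ^ 2 + u.im ^ 2 := by
    rw [Complex.normSq_apply]; simp; ring
  have hpos : 0 < (1 - u.re) ^ 2 + u.im ^ 2 := by nlinarith [sq_nonneg u.im]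
  rw [Complex.inv_re, hns]
  have hre : (1 - u).re = 1 - u.re := by simp
  rw [hre]
  constructor
  · rw [div_le_div_iff₀ (by linarith) hpos]
    nlinarith
  · rw [div_le_div_iff₀ hpos (by linarith)]
    nlinarith [sq_nonneg u.im]

lemma tau_re {α e : ℝ} (he : 0 < e) (hα : α = 1 / (1 + 2 * e)) {v : ℂ} (hv : ‖v‖ ≤ 1) :
    -e ≤ (tau α v).re ∧ (tau α v).re ≤ 1 + e := by
  have h0 : 0 < α := by rw [hα]; positivity
  have h1 : α < 1 := by rw [hα, div_lt_one (by positivity)]; linarith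
  have hu : ‖(α : ℂ) * v‖ ≤ α := by
    rw [norm_mul, Complex.norm_real, Real.norm_eq_abs, abs_of_pos h0]
    nlinarith
  obtain ⟨ha, hb⟩ := re_inv_bounds h0 h1 hu
  have hre : (tau α v).re = (1 - α ^ 2) / (2 * α ^ 2) * (((1 - (α : ℂ) * v)⁻¹).re - 1) := by
    unfold tau
    rw [Complex.re_ofReal_mul]; simp
  have hk : 0 < (1 - α ^ 2) / (2 * α ^ 2) := by
    have : 0 < 1 - α ^ 2 := by nlinarith
    positivity
  have hE : e = (1 - α) / (2 * α) := by
    rw [hα]; field_simp; ring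
  rw [hre]
  constructor
  · have h2 : (1 - α ^ 2) / (2 * α ^ 2) * (1 / (1 + α) - 1) = -e := by
      rw [hE]; field_simp; ring
    rw [← h2]; gcongr
  · have h2 : (1 - α ^ 2) / (2 * α ^ 2) * (1 / (1 - α) - 1) = 1 + e := by
      have h3 : (1 - α) ≠ 0 := by linarith
      rw [hE]; field_simp; ring
    rw [← h2]; gcongr

/-- the point `v₁` with `tau v₁ = 1` -/
noncomputable def vone (α : ℝ) : ℂ := ((2 * α / (1 + α ^ 2) : ℝ) : ℂ)

lemma tau_vone {α : ℝ} (h0 : 0 < α) (h1 : α < 1) : tau α (vone α) = 1 := by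
  unfold tau vone
  have h2 : (1 - α * (2 * α / (1 + α ^ 2))) ≠ 0 := by
    have : (1 - α * (2 * α / (1 + α ^ 2))) = (1 - α ^ 2) / (1 + α ^ 2) := by
      field_simp; ring
    rw [this]
    have : 0 < 1 - α ^ 2 := by nlinarith
    positivity
  have h3 : (1 - α ^ 2) / (2 * α ^ 2) * ((1 - α * (2 * α / (1 + α ^ 2)))⁻¹ - 1) = 1 := by
    have h4 : (1 - α * (2 * α / (1 + α ^ 2))) = (1 - α ^ 2) / (1 + α ^ 2) := by
      field_simp; ring
    have h5 : (1 - α ^ 2) ≠ 0 := by nlinarith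
    rw [h4, inv_div]
    field_simp
    ring
  exact_mod_cast h3

lemma norm_vone {α : ℝ} (h0 : 0 < α) (h1 : α < 1) : ‖vone α‖ < 1 := by
  unfold vone
  rw [Complex.norm_real, Real.norm_eq_abs, abs_of_pos (by positivity), div_lt_one (by positivity)]
  nlinarith [sq_nonneg (1 - α), mul_pos (sub_pos.2 h1) (sub_pos.2 h1)]

lemma vone_ne {α : ℝ} (h0 : 0 < α) : vone α ≠ 0 := by
  unfold vone
  have : 2 * α / (1 + α ^ 2) ≠ 0 := by positivity
  exact_mod_cast this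

end Vale.Agent.P097.H185.TL
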