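import Vale.Agent.P097.H185.TLE

/-!
The T-lemma: assembly.
-/

open Metric Set Filter MeasureTheory Real
open scoped Topology

namespace Vale.Agent.P097.H185.TL

variable {S : ℂ × ℂ → ℂ} {U : Set (ℂ × ℂ)} {φ : ℝ × ℝ → ℝ}

/-- weighted mean of the truncated logarithm along real translations -/
noncomputable def Ph (S : ℂ × ℂ → ℂ) (φ : ℝ × ℝ → ℝ) (c : ℝ) (z : ℂ × ℂ) : ℝ :=
  ∫ x, φ x * lg c (S (cx x + z))

lemma Ph_cont (hS : ContinuousOn S U) (hUx : ∀ x, ∀ z ∈ U, cx x + z ∈ U)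
    (hφc : Continuous φ) (hφs : HasCompactSupport φ) {c : ℝ} (hc : 0 < c) :
    ContinuousOn (Ph S φ c) U := by
  unfold Ph
  refine continuousOn_integral_of_compact_support (k := tsupport φ) hφs ?_ ?_
  · have hm : ContinuousOn (fun r : (ℂ × ℂ) × (ℝ × ℝ) => cx r.2 + r.1) (U ×ˢ univ) := by fun_prop
    have h1 := hS.comp hm (fun r hr => hUx r.2 r.1 hr.1)
    have h2 := (lg_continuous hc).comp_continuousOn h1
    have h3 : ContinuousOn (fun r : (ℂ × ℂ) × (ℝ × ℝ) => φ r.2) (U ×ˢ univ) := by fun_prop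
    exact h3.mul h2
  · intro z x _ hx
    rw [image_eq_zero_of_notMem_tsupport hx, zero_mul]

lemma Ph_int (hS : ContinuousOn S U) (hUx : ∀ x, ∀ z ∈ U, cx x + z ∈ U)
    (hφc : Continuous φ) (hφs : HasCompactSupport φ) {c : ℝ} (hc : 0 < c) {z : ℂ × ℂ}
    (hz : z ∈ U) : Integrable (fun x => φ x * lg c (S (cx x + z))) := by
  refine Continuous.integrable_of_hasCompactSupport ?_ hφs.mul_right
  have hm : Continuous (fun x : ℝ × ℝ => cx x + z) := by fun_prop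
  have h1 : Continuous (fun x : ℝ × ℝ => S (cx x + z)) := by
    rw [← continuousOn_univ]
    exact hS.comp hm.continuousOn (fun x _ => hUx x z hz)
  exact hφc.mul ((lg_continuous hc).comp h1)

lemma Ph_mono (hS : ContinuousOn S U) (hUx : ∀ x, ∀ z ∈ U, cx x + z ∈ U)
    (hφc : Continuous φ) (hφs : HasCompactSupport φ) (hφ0 : ∀ x, 0 ≤ φ x) {c d : ℝ} (hc : 0 < c)
    (hcd : c ≤ d) {z : ℂ × ℂ} (hz : z ∈ U) : Ph S φ c z ≤ Ph S φ d z := by
  refine integral_mono (Ph_int hS hUx hφc hφs hc hz)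
    (Ph_int hS hUx hφc hφs (hc.trans_le hcd) hz) fun x => ?_
  exact mul_le_mul_of_nonneg_left (lg_mono hc hcd) (hφ0 x)

lemma unif_c (hU : IsOpen U) (hS : ContinuousOn S U) (hUx : ∀ x, ∀ z ∈ U, cx x + z ∈ U)
    (hφc : Continuous φ) (hφs : HasCompactSupport φ) (hφ0 : ∀ x, 0 ≤ φ x)
    {Z : Set (ℂ × ℂ)} (hZ : IsCompact Z) (hZU : Z ⊆ U) {A B : ℝ} (hAB : A < B)
    (h : ∀ z ∈ Z, ∃ c > 0, Ph S φ c z ≤ A) :
    ∃ c > 0, ∀ z ∈ Z, Ph S φ c z ≤ B := by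
  have key : ∃ c > 0, ∀ z ∈ Z, z ∈ U → Ph S φ c z ≤ B := by
    refine hZ.induction_on (p := fun t => ∃ c > 0, ∀ z ∈ t, z ∈ U → Ph S φ c z ≤ B) ?_ ?_ ?_ ?_
    · exact ⟨1, one_pos, fun z hz => absurd hz (notMem_empty z)⟩
    · rintro s t hst ⟨c, hc, h1⟩
      exact ⟨c, hc, fun z hz => h1 z (hst hz)⟩
    · rintro s t ⟨c, hc, h1⟩ ⟨d, hd, h2⟩
      have hm : 0 < min c d := lt_min hc hd
      refine ⟨min c d, hm, fun z hz hzU => ?_⟩
      rcases hz with hz | hz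
      · exact (Ph_mono hS hUx hφc hφs hφ0 hm (min_le_left _ _) hzU).trans (h1 z hz hzU)
      · exact (Ph_mono hS hUx hφc hφs hφ0 hm (min_le_right _ _) hzU).trans (h2 z hz hzU)
    · intro z hz
      obtain ⟨c, hc, h1⟩ := h z hz
      have h2 : ContinuousAt (Ph S φ c) z :=
        (Ph_cont hS hUx hφc hφs hc).continuousAt (hU.mem_nhds (hZU hz))
      have h3 : ∀ᶠ w in 𝓝 z, Ph S φ c w < B := h2.eventually_lt_const (h1.trans_lt hAB)
      exact ⟨{w | Ph S φ c w < B}, mem_nhdsWithin_of_mem_nhds h3, c, hc,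
        fun w hw _ => (le_of_lt hw)⟩
  obtain ⟨c, hc, h1⟩ := key
  exact ⟨c, hc, fun z hz => h1 z hz (hZU hz)⟩

/-- the hypotheses of the assembly -/
structure TH (S : ℂ × ℂ → ℂ) (K1 K2 : Set (ℝ × ℝ)) (φ : ℝ × ℝ → ℝ) (L : ℝ) : Prop where
  o1 : IsOpen K1
  o2 : IsOpen K2
  cv : Convex ℝ K2
  sub : K1 ⊆ K2
  ne : K1.Nonempty
  cone1 : ∀ Y ∈ K1, ∀ r : ℝ, 0 < r → r • Y ∈ K1
  cone2 : ∀ Y ∈ K2, ∀ r : ℝ, 0 < r → r • Y ∈ K2
  hS : DifferentiableOn ℂ S (TT K2)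
  hS1 : ∀ z ∈ TT K1, S z ≠ 0
  φc : Continuous φ
  φs : HasCompactSupport φ
  φ0 : ∀ x, 0 ≤ φ x
  φ1 : ∀ x ∈ Sq, 1 ≤ φ x
  /-- (T3) -/
  t3 : ∀ C ⊆ K2, IsCompact C → ∀ ε > 0, ∃ δ > 0, ∀ ρ ∈ Ioo (0:ℝ) δ, ∀ a : ℝ × ℝ, ‖a‖ < δ →
    ∀ Y ∈ C, ∃ c > 0, ∫ x, φ x * lg c (S (cx x + (cx a + (ρ : ℂ) • ii Y))) ≤ L + ε
  /-- (T2) -/
  t2 : ∀ C ⊆ K1, IsCompact C → ∀ ε > 0, ∃ δ > 0, ∀ ρ ∈ Ioo (0:ℝ) δ, ∀ a : ℝ × ℝ, ‖a‖ < δ →
    ∀ Y ∈ C, L - ε ≤ ∫ x, φ x * Real.log ‖S (cx x + (cx a + (ρ : ℂ) • ii Y))‖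

variable {K1 K2 : Set (ℝ × ℝ)} {L : ℝ}

lemma TH.hU (h : TH S K1 K2 φ L) : IsOpen (TT K2) := h.o2.preimage im2_continuous

lemma TH.hUx (_h : TH S K1 K2 φ L) : ∀ x, ∀ z ∈ TT K2, cx x + z ∈ TT K2 := by
  intro x z hz
  show im2 (cx x + z) ∈ K2
  rw [im2_add, im2_cx, zero_add]; exact hz

/-- bad translations for a set `A` of positions at scale `ρ` -/
def Bad (S : ℂ × ℂ → ℂ) (ρ : ℝ) (A : Set (ℂ × ℂ)) : Set (ℝ × ℝ) :=
  Sq ∩ {x | ∃ w ∈ A, S (cx x + (ρ : ℂ) • w) = 0}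

theorem TH.loc (h : TH S K1 K2 φ L) {w₀ : ℂ × ℂ} (hw : w₀ ∈ TT K2) :
    ∃ y > 0, ∀ η > 0, ∃ ρ₀ > 0, ∀ ρ ∈ Ioo (0:ℝ) ρ₀,
      volume (Bad S ρ (closedBall w₀ y)) ≤ ENNReal.ofReal η := by
  obtain ⟨Y₀, hY₀⟩ := h.ne
  set Y := im2 w₀ with hY
  have hYK : Y ∈ K2 := hw
  set seg := segment ℝ Y₀ Y with hseg
  have hsegc : IsCompact seg := by
    rw [hseg, segment_eq_image']
    exact isCompact_Icc.image (by fun_prop)
  have hsegK : seg ⊆ K2 := h.cv.segment_subset (h.sub hY₀) hYK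
  obtain ⟨m₁, hm₁, hm₁s⟩ := hsegc.exists_cthickening_subset_open h.o2 hsegK
  obtain ⟨m₂, hm₂, hm₂s⟩ := Metric.nhds_basis_closedBall.mem_iff.1 (h.o1.mem_nhds hY₀)
  set m := min m₁ m₂ with hm
  have hmpos : 0 < m := lt_min hm₁ hm₂
  set C2 := cthickening m seg with hC2
  set C1 := closedBall Y₀ m with hC1
  have hC2c : IsCompact C2 := hsegc.cthickening
  have hC1c : IsCompact C1 := isCompact_closedBall _ _
  have hC2K : C2 ⊆ K2 := (cthickening_mono (min_le_left _ _) seg).trans hm₁s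
  have hC1K : C1 ⊆ K1 := (closedBall_subset_closedBall (min_le_right _ _)).trans hm₂s
  set V := Y - Y₀ with hV
  set e := m / (2 * (‖V‖ + 1)) with he
  have hepos : 0 < e := by positivity
  have heV : e * ‖V‖ ≤ m / 2 := by
    rw [he, div_mul_eq_mul_div, div_le_div_iff₀ (by positivity) (by positivity)]
    nlinarith [norm_nonneg V]
  set α : ℝ := 1 / (1 + 2 * e) with hα
  have hα0 : 0 < α := by positivity
  have hα1 : α < 1 := by rw [hα, div_lt_one (by positivity)]; linarith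
  -- the disc
  set Z : ℂ → ℂ × ℂ := fun v => cx (re2 w₀) + ii Y₀ + tau α v • ii V with hZ
  set y := m / 4 with hy
  have hypos : 0 < y := by positivity
  have hZim : ∀ v, im2 (Z v) = Y₀ + (tau α v).re • V := by
    intro v
    rw [hZ]; simp only
    rw [im2_add, im2_add, im2_cx, im2_ii, im2_smul_ii, zero_add]
  have hZ0 : ∀ q ∈ closedBall (0 : ℂ × ℂ) (2 * y), im2 (q + Z 0) ∈ C1 := by
    intro q hq
    rw [mem_closedBall_zero_iff] at hq
    rw [im2_add, hZim, tau_zero, hC1, mem_closedBall, dist_eq_norm]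
    have : im2 q + (Y₀ + (0:ℂ).re • V) - Y₀ = im2 q := by simp
    rw [this]
    have := norm_im2_le q
    linarith
  have hZv : ∀ q ∈ closedBall (0 : ℂ × ℂ) (2 * y), ∀ v ∈ closedBall (0:ℂ) 1,
      im2 (q + Z v) ∈ C2 := by
    intro q hq v hv
    rw [mem_closedBall_zero_iff] at hq hv
    obtain ⟨h1, h2⟩ := tau_re hepos hα hv
    set t := (tau α v).re with ht
    set t' := max 0 (min 1 t) with ht'
    have ht'0 : 0 ≤ t' := le_max_left _ _
    have ht'1 : t' ≤ 1 := max_le zero_le_one (min_le_left _ _)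
    have htt : |t - t'| ≤ e := by
      rw [abs_le]
      rcases le_total t 0 with h3 | h3
      · have : t' = 0 := by
          rw [ht', min_eq_right (by linarith), max_eq_left h3]
        rw [this]; constructor <;> linarith
      · rcases le_total t 1 with h4 | h4
        · have : t' = t := by rw [ht', min_eq_right h4, max_eq_right h3]
          rw [this]; constructor <;> linarith
        · have : t' = 1 := by rw [ht', min_eq_left h4, max_eq_right zero_le_one]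
          rw [this]; constructor <;> linarith
    refine mem_cthickening_of_dist_le _ (Y₀ + t' • V) m seg ?_ ?_
    · rw [hseg, segment_eq_image']
      exact ⟨t', ⟨ht'0, ht'1⟩, rfl⟩
    · rw [im2_add, hZim, dist_eq_norm]
      have : im2 q + (Y₀ + t • V) - (Y₀ + t' • V) = im2 q + (t - t') • V := by
        rw [sub_smul]; abel
      rw [this]
      calc ‖im2 q + (t - t') • V‖ ≤ ‖im2 q‖ + ‖(t - t') • V‖ := norm_add_le _ _
        _ = ‖im2 q‖ + |t - t'| * ‖V‖ := by rw [norm_smul, Real.norm_eq_abs]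
        _ ≤ 2 * y + e * ‖V‖ := by
          gcongr
          exact (norm_im2_le q).trans hq
        _ ≤ m := by linarith
  have hZ1 : Z (vone α) = w₀ := by
    rw [hZ]; simp only
    rw [tau_vone hα0 hα1, one_smul, add_assoc]
    have : ii Y₀ + ii V = ii Y := by
      rw [hV]; unfold ii; ext <;> simp <;> ring
    rw [this]; exact re_im w₀
  have hZd : DifferentiableOn ℂ Z (ball 0 α⁻¹) := by
    have := tau_diff hα0
    rw [hZ]
    exact ((this.smul_const (ii V)).const_add _)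
  have hO : closedBall (0:ℂ) 1 ⊆ ball 0 α⁻¹ := closedBall_subset_ball ((one_lt_inv₀ hα0).2 hα1)
  have hZc : ContinuousOn Z (closedBall (0:ℂ) 1) := hZd.continuousOn.mono hO
  -- compact set of positions and a bound for it
  set P := (fun r : (ℂ × ℂ) × ℂ => r.1 + Z r.2) ''
    (closedBall (0 : ℂ × ℂ) (2 * y) ×ˢ closedBall (0:ℂ) 1) with hP
  have hPc : IsCompact P := by
    refine ((isCompact_closedBall _ _).prod (isCompact_closedBall _ _)).image_of_continuousOn ?_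
    exact continuous_fst.continuousOn.add
      (hZc.comp continuous_snd.continuousOn (fun r hr => hr.2))
  obtain ⟨R, hRpos, hR⟩ : ∃ R > 0, ∀ z ∈ P, ‖z‖ ≤ R := by
    obtain ⟨R, hR⟩ := hPc.isBounded.exists_norm_le
    exact ⟨max R 1, by positivity, fun z hz => (hR z hz).trans (le_max_left _ _)⟩
  refine ⟨y, hypos, fun η hη => ?_⟩
  set ℓ := Real.log (‖vone α‖⁻¹) with hℓ
  have hℓpos : 0 < ℓ :=
    Real.log_pos ((one_lt_inv₀ (norm_pos_iff.2 (vone_ne hα0))).2 (norm_vone hα0 hα1))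
  set ε := η * ℓ / 48 with hε
  have hεpos : 0 < ε := by positivity
  obtain ⟨δ₃, hδ₃, H3⟩ := h.t3 C2 hC2K hC2c ε hεpos
  obtain ⟨δ₂, hδ₂, H2⟩ := h.t2 C1 hC1K hC1c ε hεpos
  refine ⟨min (min δ₂ δ₃) (min δ₂ δ₃ / (2 * R)), by positivity, fun ρ hρ => ?_⟩
  obtain ⟨hρ0, hρ1⟩ := hρ
  have hρ2 : ρ < δ₂ := lt_of_lt_of_le hρ1 ((min_le_left _ _).trans (min_le_left _ _))
  have hρ3 : ρ < δ₃ := lt_of_lt_of_le hρ1 ((min_le_left _ _).trans (min_le_right _ _))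
  have hρR : ρ * R < min δ₂ δ₃ := by
    have h1 : ρ < min δ₂ δ₃ / (2 * R) := lt_of_lt_of_le hρ1 (min_le_right _ _)
    rw [lt_div_iff₀ (by positivity)] at h1
    nlinarith
  -- decomposition of scaled positions
  have hdec : ∀ z : ℂ × ℂ, (ρ : ℂ) • z = cx (ρ • re2 z) + (ρ : ℂ) • ii (im2 z) := by
    intro z
    rw [cx_smul, ← smul_add, re_im]
  have hshift : ∀ z ∈ P, ‖ρ • re2 z‖ < min δ₂ δ₃ := by
    intro z hz
    rw [norm_smul, Real.norm_eq_abs, abs_of_pos hρ0]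
    calc ρ * ‖re2 z‖ ≤ ρ * R := by
          gcongr
          exact (norm_re2_le z).trans (hR z hz)
      _ < _ := hρR
  -- uniform c
  have hPim : ∀ z ∈ P, im2 z ∈ C2 := by
    rintro z ⟨r, hr, rfl⟩
    exact hZv r.1 hr.1 r.2 hr.2
  set P' := (fun z : ℂ × ℂ => (ρ : ℂ) • z) '' P with hP'
  have hP'c : IsCompact P' := hPc.image (by fun_prop)
  have hP'U : P' ⊆ TT K2 := by
    rintro z ⟨z', hz', rfl⟩
    show im2 ((ρ : ℂ) • z') ∈ K2
    rw [im2_smul]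
    exact h.cone2 _ (hC2K (hPim z' hz')) ρ hρ0
  obtain ⟨c, hc, hcP⟩ : ∃ c > 0, ∀ z ∈ P', Ph S φ c z ≤ L + 2 * ε := by
    refine unif_c h.hU h.hS.continuousOn h.hUx h.φc h.φs h.φ0 hP'c hP'U
      (A := L + ε) (by linarith) ?_
    rintro z ⟨z', hz', rfl⟩
    obtain ⟨c, hc, h1⟩ := H3 ρ ⟨hρ0, hρ3⟩ (ρ • re2 z')
      ((hshift z' hz').trans_le (min_le_right _ _)) (im2 z') (hPim z' hz')
    refine ⟨c, hc, ?_⟩
    unfold Ph
    simp only [hdec z']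
    exact h1
  -- the scaled disc
  set D : ℂ → ℂ × ℂ := fun v => (ρ : ℂ) • Z v with hD
  have hdat : Dat S (TT K2) D (ball 0 α⁻¹) :=
    { hU := h.hU
      hS := h.hS
      hO := isOpen_ball
      hD := hZd.const_smul (ρ : ℂ)
      hsub := hO }
  have hq : ∀ q ∈ closedBall (0 : ℂ × ℂ) (2 * (ρ * y)), ∃ q' ∈ closedBall (0 : ℂ × ℂ) (2 * y),
      q = (ρ : ℂ) • q' := by
    intro q hq
    have hρc : (ρ : ℂ) ≠ 0 := by exact_mod_cast hρ0.ne'
    refine ⟨(ρ : ℂ)⁻¹ • q, ?_, ?_⟩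
    · rw [mem_closedBall_zero_iff] at hq ⊢
      rw [norm_smul, norm_inv, Complex.norm_real, Real.norm_eq_abs, abs_of_pos hρ0]
      rw [inv_mul_le_iff₀ hρ0]
      linarith
    · rw [smul_smul, mul_inv_cancel₀ hρc, one_smul]
  have hadm : ∀ x : ℝ × ℝ, ∀ q ∈ closedBall (0 : ℂ × ℂ) (2 * (ρ * y)),
      cx x + q ∈ Adm S (TT K2) D := by
    intro x q hqm
    obtain ⟨q', hq', rfl⟩ := hq q hqm
    constructor
    · intro v hv
      show im2 (cx x + (ρ : ℂ) • q' + (ρ : ℂ) • Z v) ∈ K2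
      rw [add_assoc, ← smul_add, im2_add, im2_cx, zero_add, im2_smul]
      exact h.cone2 _ (hC2K (hZv q' hq' v hv)) ρ hρ0
    · refine h.hS1 _ ?_
      show im2 (cx x + (ρ : ℂ) • q' + (ρ : ℂ) • Z 0) ∈ K1
      rw [add_assoc, ← smul_add, im2_add, im2_cx, zero_add, im2_smul]
      exact h.cone1 _ (hC1K (hZ0 q' hq')) ρ hρ0
  have hmain := hdat.disc_measure hc (s := ρ * y) (by positivity) hadm h.φc h.φs h.φ0 h.φ1
    (A := L + 2 * ε) (B := L - ε) (by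
      intro q hqm v hv
      obtain ⟨q', hq', rfl⟩ := hq q hqm
      have hmem : q' + Z v ∈ P := ⟨(q', v), ⟨hq', sphere_subset_closedBall hv⟩, rfl⟩
      have h1 := hcP _ ⟨_, hmem, rfl⟩
      unfold Ph at h1
      have h2 : ∀ x : ℝ × ℝ, cx x + (ρ : ℂ) • q' + D v = cx x + (ρ : ℂ) • (q' + Z v) := by
        intro x
        show cx x + (ρ : ℂ) • q' + (ρ : ℂ) • Z v = _
        rw [smul_add (ρ : ℂ) q' (Z v), add_assoc]
      simp only [h2]
      exact h1) (by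
      intro q hqm
      obtain ⟨q', hq', rfl⟩ := hq q hqm
      have hmem : q' + Z 0 ∈ P := ⟨(q', 0), ⟨hq', by simp⟩, rfl⟩
      have h1 := H2 ρ ⟨hρ0, hρ2⟩ (ρ • re2 (q' + Z 0))
        ((hshift _ hmem).trans_le (min_le_left _ _)) (im2 (q' + Z 0)) (hZ0 q' hq')
      rw [← hdec] at h1
      have h2 : ∀ x : ℝ × ℝ, cx x + (ρ : ℂ) • q' + D 0 = cx x + (ρ : ℂ) • (q' + Z 0) := by
        intro x
        show cx x + (ρ : ℂ) • q' + (ρ : ℂ) • Z 0 = _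
        rw [smul_add (ρ : ℂ) q' (Z 0), add_assoc]
      simp only [h2]
      exact h1) (norm_vone hα0 hα1) (vone_ne hα0)
  have hval : 16 * (L + 2 * ε - (L - ε)) = ℓ * η := by rw [hε]; ring
  rw [hval] at hmain
  have hle := le_of_mul_le_mul_left hmain hℓpos
  have hsub : Bad S ρ (closedBall w₀ y) ⊆ Sq ∩ {x | ∃ p ∈ closedBall (0 : ℂ × ℂ) (ρ * y),
      S (cx x + p + D (vone α)) = 0} := by
    rintro x ⟨hx, w, hw', h0⟩
    refine ⟨hx, (ρ : ℂ) • (w - w₀), ?_, ?_⟩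
    · rw [mem_closedBall_zero_iff, norm_smul, Complex.norm_real, Real.norm_eq_abs, abs_of_pos hρ0]
      rw [mem_closedBall, dist_eq_norm] at hw'
      gcongr
    · rw [hD]; simp only
      rw [hZ1, add_assoc, ← smul_add, sub_add_cancel]
      exact h0
  have hfin : volume (Sq ∩ {x | ∃ p ∈ closedBall (0 : ℂ × ℂ) (ρ * y),
      S (cx x + p + D (vone α)) = 0}) ≠ ⊤ :=
    (lt_of_le_of_lt (measure_mono inter_subset_left) Sq_compact.measure_lt_top).ne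
  calc volume (Bad S ρ (closedBall w₀ y)) ≤ volume (Sq ∩ {x | ∃ p ∈ closedBall (0 : ℂ × ℂ) (ρ * y),
      S (cx x + p + D (vone α)) = 0}) := measure_mono hsub
    _ = ENNReal.ofReal (volume (Sq ∩ {x | ∃ p ∈ closedBall (0 : ℂ × ℂ) (ρ * y),
      S (cx x + p + D (vone α)) = 0})).toReal := (ENNReal.ofReal_toReal hfin).symm
    _ ≤ ENNReal.ofReal η := ENNReal.ofReal_le_ofReal hle

/-- small measure of bad translations, compact sets of positions -/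
theorem TH.small (h : TH S K1 K2 φ L) {W : Set (ℂ × ℂ)} (hW : IsCompact W) (hWs : W ⊆ TT K2) :
    ∀ η > 0, ∃ ρ₀ > 0, ∀ ρ ∈ Ioo (0:ℝ) ρ₀, volume (Bad S ρ W) ≤ ENNReal.ofReal η := by
  refine hW.induction_on (p := fun A => ∀ η > 0, ∃ ρ₀ > 0, ∀ ρ ∈ Ioo (0:ℝ) ρ₀,
    volume (Bad S ρ A) ≤ ENNReal.ofReal η) ?_ ?_ ?_ ?_
  · intro η _
    refine ⟨1, one_pos, fun ρ _ => ?_⟩
    have : Bad S ρ ∅ = ∅ := by
      ext x; simp [Bad]
    rw [this]; simp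
  · intro s t hst h1 η hη
    obtain ⟨ρ₀, hρ₀, h2⟩ := h1 η hη
    refine ⟨ρ₀, hρ₀, fun ρ hρ => (measure_mono ?_).trans (h2 ρ hρ)⟩
    rintro x ⟨hx, w, hw, h0⟩
    exact ⟨hx, w, hst hw, h0⟩
  · intro s t h1 h2 η hη
    obtain ⟨ρ₁, hρ₁, h1'⟩ := h1 (η / 2) (by positivity)
    obtain ⟨ρ₂, hρ₂, h2'⟩ := h2 (η / 2) (by positivity)
    refine ⟨min ρ₁ ρ₂, lt_min hρ₁ hρ₂, fun ρ hρ => ?_⟩
    have hu : Bad S ρ (s ∪ t) ⊆ Bad S ρ s ∪ Bad S ρ t := by
      rintro x ⟨hx, w, hw, h0⟩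
      rcases hw with hw | hw
      · exact Or.inl ⟨hx, w, hw, h0⟩
      · exact Or.inr ⟨hx, w, hw, h0⟩
    calc volume (Bad S ρ (s ∪ t)) ≤ volume (Bad S ρ s ∪ Bad S ρ t) := measure_mono hu
      _ ≤ volume (Bad S ρ s) + volume (Bad S ρ t) := measure_union_le _ _
      _ ≤ ENNReal.ofReal (η / 2) + ENNReal.ofReal (η / 2) := by
        gcongr
        · exact h1' ρ ⟨hρ.1, hρ.2.trans_le (min_le_left _ _)⟩
        · exact h2' ρ ⟨hρ.1, hρ.2.trans_le (min_le_right _ _)⟩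
      _ = ENNReal.ofReal η := by
        rw [← ENNReal.ofReal_add (by positivity) (by positivity), add_halves]
  · intro w hw
    obtain ⟨y, hy, h1⟩ := h.loc (hWs hw)
    exact ⟨closedBall w y, mem_nhdsWithin_of_mem_nhds (closedBall_mem_nhds w hy), h1⟩

/-- **T-lemma, assembly.** -/
theorem TH.main (h : TH S K1 K2 φ L) {W : Set (ℂ × ℂ)} (hW : IsCompact W) (hWs : W ⊆ TT K2) :
    ∃ ρ₀ > 0, ∀ ρ ∈ Ioo (0:ℝ) ρ₀, ∃ x ∈ Sq, ∀ w ∈ W, S (cx x + (ρ : ℂ) • w) ≠ 0 := by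
  obtain ⟨ρ₀, hρ₀, h1⟩ := h.small hW hWs (1 / 2) (by norm_num)
  refine ⟨ρ₀, hρ₀, fun ρ hρ => ?_⟩
  by_contra hcon
  push Not at hcon
  have hsub : Sq ⊆ Bad S ρ W := fun x hx => ⟨hx, hcon x hx⟩
  have h2 := (measure_mono hsub).trans (h1 ρ hρ)
  have h3 : volume Sq = 1 := by
    unfold Sq
    rw [Measure.volume_eq_prod, Measure.prod_prod, Real.volume_Icc]
    norm_num
  rw [h3] at h2
  have h4 : ENNReal.ofReal (1 / 2) < 1 := by
    rw [ENNReal.ofReal_lt_one]; norm_num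
  exact absurd h2 (not_le.2 h4)

end Vale.Agent.P097.H185.TL
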