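import Vale.Agent.P097.H185.TLF

/-!
Version of `TLD` for integrable weights without compact support (Gaussian weight).
-/

open Metric Set Filter MeasureTheory Real
open scoped Topology

namespace Vale.Agent.P097.H185.TL

/-- product integrability of a dominated kernel -/
lemma dom_prod {E : Type*} [TopologicalSpace E] [MeasurableSpace E] [BorelSpace E]
    [SecondCountableTopology E] {μ : Measure E} [SFinite μ]
    {h : ℂ → E → ℝ} (hc : ContinuousOn (Function.uncurry h) (sphere (0:ℂ) 1 ×ˢ univ))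
    {g : E → ℝ} (hg : Integrable g μ) (hd : ∀ ζ ∈ sphere (0:ℂ) 1, ∀ z, |h ζ z| ≤ g z) :
    Integrable (fun p : E × ℝ => h (circleMap 0 1 p.2) p.1)
      (μ.prod (volume.restrict (Ioc (0:ℝ) (2 * π)))) := by
  have hcont : Continuous (fun p : E × ℝ => h (circleMap 0 1 p.2) p.1) := by
    rw [← continuousOn_univ]
    have hm : ContinuousOn (fun p : E × ℝ => (circleMap 0 1 p.2, p.1)) univ :=
      (by fun_prop : Continuous fun p : E × ℝ => (circleMap 0 1 p.2, p.1)).continuousOn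
    exact hc.comp hm (fun p _ => ⟨by simp, mem_univ _⟩)
  have hg2 : Integrable (fun p : E × ℝ => g p.1)
      (μ.prod (volume.restrict (Ioc (0:ℝ) (2 * π)))) := by
    exact hg.comp_fst _
  refine hg2.mono' hcont.aestronglyMeasurable (ae_of_all _ fun p => ?_)
  rw [Real.norm_eq_abs]
  exact hd _ (by simp) _

theorem circ_swapG {E : Type*} [TopologicalSpace E] [MeasurableSpace E] [BorelSpace E]
    [SecondCountableTopology E] {μ : Measure E} [SFinite μ]
    {h : ℂ → E → ℝ} (hc : ContinuousOn (Function.uncurry h) (sphere (0:ℂ) 1 ×ˢ univ))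
    {g : E → ℝ} (hg : Integrable g μ) (hd : ∀ ζ ∈ sphere (0:ℂ) 1, ∀ z, |h ζ z| ≤ g z) :
    Integrable (fun z => circleAverage (fun ζ => h ζ z) 0 1) μ ∧
    CircleIntegrable (fun ζ => ∫ z, h ζ z ∂μ) 0 1 ∧
    ∫ z, circleAverage (fun ζ => h ζ z) 0 1 ∂μ =
      circleAverage (fun ζ => ∫ z, h ζ z ∂μ) 0 1 := by
  have hpi : (0:ℝ) ≤ 2 * π := by positivity
  have hp := dom_prod hc hg hd
  refine ⟨?_, ?_, ?_⟩
  · have h1 := (hp.integral_prod_left).smul ((2 * π)⁻¹)
    refine h1.congr (ae_of_all _ fun z => ?_)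
    simp only [Pi.smul_apply]
    rw [circleAverage_def, intervalIntegral.integral_of_le hpi]
  · have h1 := hp.integral_prod_right
    rw [CircleIntegrable, intervalIntegrable_iff_integrableOn_Ioc_of_le hpi]
    exact h1
  · unfold circleAverage
    rw [integral_smul]
    congr 1
    simp_rw [intervalIntegral.integral_of_le hpi]
    exact integral_integral_swap hp

variable {S : ℂ × ℂ → ℂ} {U : Set (ℂ × ℂ)} {D : ℂ → ℂ × ℂ} {O : Set ℂ} {c : ℝ}

lemma Dat.phi_J0G (h : Dat S U D O) (hc : 0 < c) {q : ℂ × ℂ}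
    (hA : ∀ x : ℝ × ℝ, cx x + q ∈ Adm S U D)
    {φ : ℝ × ℝ → ℝ} (hφc : Continuous φ) {g : ℝ × ℝ → ℝ} (hg : Integrable g)
    (hd : ∀ v ∈ sphere (0:ℂ) 1, ∀ x, |φ x * lg c (S (cx x + q + D v))| ≤ g x)
    (hd0 : Integrable (fun x => φ x * Real.log ‖S (cx x + q + D 0)‖))
    {A B : ℝ}
    (hup : ∀ v ∈ sphere (0:ℂ) 1, ∫ x, φ x * lg c (S (cx x + q + D v)) ≤ A)
    (hlow : B ≤ ∫ x, φ x * Real.log ‖S (cx x + q + D 0)‖) :
    Integrable (fun x => φ x * J0 S c D (cx x + q)) ∧
    ∫ x, φ x * J0 S c D (cx x + q) ≤ A - B := by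
  have hclu : ContinuousOn (Function.uncurry fun (v : ℂ) (x : ℝ × ℝ) =>
      φ x * lg c (S (cx x + q + D v))) (sphere (0:ℂ) 1 ×ˢ univ) := by
    have hm : ContinuousOn (fun r : ℂ × (ℝ × ℝ) => (r.1, cx r.2 + q))
        (sphere (0:ℂ) 1 ×ˢ univ) := by fun_prop
    have hmt : MapsTo (fun r : ℂ × (ℝ × ℝ) => (r.1, cx r.2 + q))
        (sphere (0:ℂ) 1 ×ˢ univ) (closedBall (0:ℂ) 1 ×ˢ Adm S U D) :=
      fun r hr => ⟨sphere_subset_closedBall hr.1, hA _⟩
    have h1 := (h.cont_lg hc).comp hm hmt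
    have h2 : ContinuousOn (fun r : ℂ × (ℝ × ℝ) => φ r.2) (sphere (0:ℂ) 1 ×ˢ univ) := by
      fun_prop
    exact h2.mul h1
  obtain ⟨i1, i2, e0⟩ := circ_swapG (μ := (volume : Measure (ℝ × ℝ))) hclu hg hd
  have e1 : (fun x => φ x * J0 S c D (cx x + q)) = fun x =>
      circleAverage (fun v => φ x * lg c (S (cx x + q + D v))) 0 1 -
        φ x * Real.log ‖S (cx x + q + D 0)‖ := by
    funext x
    have h1 : circleAverage (fun v => φ x * lg c (S (cx x + q + D v))) 0 1 =
        φ x * circleAverage (fun v => lg c (S (cx x + q + D v))) 0 1 := by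
      have := circleAverage_fun_smul (a := φ x) (f := fun v => lg c (S (cx x + q + D v)))
        (c := 0) (R := 1)
      simpa [smul_eq_mul] using this
    rw [h1]
    unfold J0
    ring
  rw [e1]
  refine ⟨i1.sub hd0, ?_⟩
  rw [integral_sub i1 hd0, e0]
  have e3 : circleAverage (fun v => ∫ x, φ x * lg c (S (cx x + q + D v))) 0 1 ≤ A := by
    refine circleAverage_mono_on_of_le_circle i2 fun v hv => ?_
    rw [abs_one] at hv
    exact hup v hv
  linarith

theorem Dat.disc_measureG (h : Dat S U D O) (hc : 0 < c) {s : ℝ} (hs : 0 < s)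
    (hA : ∀ x : ℝ × ℝ, ∀ q ∈ closedBall (0 : ℂ × ℂ) (2 * s), cx x + q ∈ Adm S U D)
    {φ : ℝ × ℝ → ℝ} (hφc : Continuous φ) (hφ0 : ∀ x, 0 ≤ φ x) {κ : ℝ} (hκ : 0 < κ)
    (hφ1 : ∀ x ∈ Sq, κ ≤ φ x) {A B : ℝ}
    (hd : ∀ q ∈ closedBall (0 : ℂ × ℂ) (2 * s), ∃ g : ℝ × ℝ → ℝ, Integrable g ∧
      ∀ v ∈ sphere (0:ℂ) 1, ∀ x, |φ x * lg c (S (cx x + q + D v))| ≤ g x)
    (hd0 : ∀ q ∈ closedBall (0 : ℂ × ℂ) (2 * s),
      Integrable (fun x => φ x * Real.log ‖S (cx x + q + D 0)‖))
    (hup : ∀ q ∈ closedBall (0 : ℂ × ℂ) (2 * s), ∀ v ∈ sphere (0:ℂ) 1,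
      ∫ x, φ x * lg c (S (cx x + q + D v)) ≤ A)
    (hlow : ∀ q ∈ closedBall (0 : ℂ × ℂ) (2 * s),
      B ≤ ∫ x, φ x * Real.log ‖S (cx x + q + D 0)‖)
    {v₁ : ℂ} (hv : ‖v₁‖ < 1) (hv0 : v₁ ≠ 0) :
    κ * Real.log (‖v₁‖⁻¹) *
      (volume (Sq ∩ {x | ∃ p ∈ closedBall (0 : ℂ × ℂ) s, S (cx x + p + D v₁) = 0})).toReal ≤
      16 * (A - B) := by
  have := vol2_haar
  set Q2 := closedBall (0 : ℂ × ℂ) (2 * s) with hQ2
  have hlog : 0 < Real.log (‖v₁‖⁻¹) :=
    Real.log_pos ((one_lt_inv₀ (norm_pos_iff.2 hv0)).2 hv)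
  set V : ℝ := (volume (closedBall (0 : ℂ × ℂ) s)).toReal with hV
  have hVpos : 0 < V := by
    refine ENNReal.toReal_pos ?_ (isCompact_closedBall (0 : ℂ × ℂ) s).measure_lt_top.ne
    exact (measure_closedBall_pos _ _ hs).ne'
  have hV2 : (volume Q2).toReal = 16 * V := by
    rw [hQ2, Measure.addHaar_closedBall_mul volume (0 : ℂ × ℂ) (by norm_num : (0:ℝ) ≤ 2) hs.le,
      ENNReal.toReal_mul, ENNReal.toReal_ofReal (by positivity)]
    have : Module.finrank ℝ (ℂ × ℂ) = 4 := by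
      rw [Module.finrank_prod, Complex.finrank_real_complex]
    rw [this]; norm_num; rfl
  -- the joint function
  have hjc : ContinuousOn (fun r : (ℝ × ℝ) × (ℂ × ℂ) => J0 S c D (cx r.1 + r.2)) (Sq ×ˢ Q2) := by
    have hm : ContinuousOn (fun r : (ℝ × ℝ) × (ℂ × ℂ) => cx r.1 + r.2) (Sq ×ˢ Q2) := by fun_prop
    exact (h.cont_J0 hc).comp hm (fun r hr => hA r.1 r.2 hr.2)
  have hji : Integrable (fun r : (ℝ × ℝ) × (ℂ × ℂ) => J0 S c D (cx r.1 + r.2))
      ((volume.restrict Sq).prod (volume.restrict Q2)) := by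
    have h1 := hjc.integrableOn_compact (μ := (volume : Measure (ℝ × ℝ)).prod
      (volume : Measure (ℂ × ℂ))) (Sq_compact.prod (isCompact_closedBall _ _))
    rw [IntegrableOn, ← Measure.prod_restrict] at h1
    exact h1
  set H : ℝ × ℝ → ℝ := fun x => ∫ q in Q2, J0 S c D (cx x + q) with hH
  have hHint : Integrable H (volume.restrict Sq) := hji.integral_prod_left
  have hHnn : ∀ x, 0 ≤ H x := by
    intro x
    refine setIntegral_nonneg measurableSet_closedBall fun q hq => h.J0_nonneg hc (hA x q hq)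
  -- lower bound at bad points
  have hbad : ∀ x, (∃ p ∈ closedBall (0 : ℂ × ℂ) s, S (cx x + p + D v₁) = 0) →
      V * Real.log (‖v₁‖⁻¹) ≤ H x := by
    rintro x ⟨p, hp, hzero⟩
    have hsub : closedBall p s ⊆ Q2 := by
      intro q hq
      rw [mem_closedBall_zero_iff] at hp
      rw [hQ2, mem_closedBall_zero_iff]
      rw [mem_closedBall, dist_eq_norm] at hq
      have : ‖q‖ ≤ ‖q - p‖ + ‖p‖ := by
        simpa using norm_add_le (q - p) p
      linarith
    have hsub2 : closedBall (cx x + p) s ⊆ Adm S U D := by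
      intro q hq
      have h1 : q - cx x ∈ Q2 := by
        apply hsub
        rw [mem_closedBall, dist_eq_norm] at hq ⊢
        rwa [sub_sub]
      have h2 := hA x _ h1
      simpa using h2
    have h1 := h.J0_mean hc hs.le hsub2
    have h2 := h.J0_zero hc (hsub2 (mem_closedBall_self hs.le)) hv hzero
    have h3 : (volume (closedBall (cx x + p) s)).toReal = V := by
      rw [hV, Measure.addHaar_closedBall_center]
    rw [h3] at h1
    have h4 : ∫ q in closedBall (cx x + p) s, J0 S c D q =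
        ∫ q in closedBall p s, J0 S c D (cx x + q) := by
      have h5 := (measurePreserving_add_left (volume : Measure (ℂ × ℂ))
        (cx x)).setIntegral_preimage_emb (measurableEmbedding_addLeft (cx x)) (J0 S c D)
        (closedBall (cx x + p) s)
      rw [← h5]
      congr 2
      ext z
      simp [mem_closedBall, dist_eq_norm]
    have h5 : ∫ q in closedBall p s, J0 S c D (cx x + q) ≤ H x := by
      refine setIntegral_mono_set ?_ ?_ (LE.le.eventuallyLE hsub)
      · have hm : ContinuousOn (fun q : ℂ × ℂ => cx x + q) Q2 := by fun_prop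
        have hm2 : ContinuousOn (fun q : ℂ × ℂ => J0 S c D (cx x + q)) Q2 :=
          (h.cont_J0 hc).comp hm (fun q hq => hA x q hq)
        exact hm2.integrableOn_compact (isCompact_closedBall _ _)
      · refine (ae_restrict_iff' measurableSet_closedBall).2 (ae_of_all _ fun q hq => ?_)
        exact h.J0_nonneg hc (hA x q hq)
    have h6 : V * Real.log (‖v₁‖⁻¹) ≤ V * J0 S c D (cx x + p) := by gcongr
    linarith
  -- upper bound of the integral of H
  have hup2 : κ * ∫ x in Sq, H x ≤ 16 * V * (A - B) := by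
    have hsw : ∫ x in Sq, H x = ∫ q in Q2, ∫ x in Sq, J0 S c D (cx x + q) :=
      integral_integral_swap hji
    rw [hsw]
    have hq : ∀ q ∈ Q2, κ * ∫ x in Sq, J0 S c D (cx x + q) ≤ A - B := by
      intro q hq
      obtain ⟨g, hg, hdg⟩ := hd q hq
      have hmap : Continuous (fun x : ℝ × ℝ => cx x + q) := by fun_prop
      have hcJ : Continuous (fun x : ℝ × ℝ => J0 S c D (cx x + q)) := by
        rw [← continuousOn_univ]
        exact (h.cont_J0 hc).comp hmap.continuousOn (fun x _ => hA x q hq)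
      obtain ⟨j1, j2⟩ := h.phi_J0G hc (fun x => hA x q hq) hφc hg hdg (hd0 q hq) (hup q hq)
        (hlow q hq)
      refine le_trans ?_ j2
      have h1 : κ * ∫ x in Sq, J0 S c D (cx x + q) ≤ ∫ x in Sq, φ x * J0 S c D (cx x + q) := by
        rw [← integral_const_mul]
        refine setIntegral_mono_on
          ((continuous_const.mul hcJ).continuousOn.integrableOn_compact Sq_compact)
          ((hφc.mul hcJ).continuousOn.integrableOn_compact Sq_compact) Sq_meas fun x hx => ?_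
        have h2 := h.J0_nonneg hc (hA x q hq)
        have h3 := hφ1 x hx
        exact mul_le_mul_of_nonneg_right h3 h2
      refine h1.trans ?_
      exact setIntegral_le_integral j1
        (ae_of_all _ fun x => mul_nonneg (hφ0 x) (h.J0_nonneg hc (hA x q hq)))
    have h2 : ∫ q in Q2, κ * ∫ x in Sq, J0 S c D (cx x + q) ≤ ∫ _q in Q2, (A - B) := by
      refine setIntegral_mono_on ?_ ?_ measurableSet_closedBall hq
      · exact (hji.integral_prod_right).const_mul κ
      · exact integrableOn_const ((isCompact_closedBall _ _).measure_lt_top.ne)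
    rw [setIntegral_const, smul_eq_mul, Measure.real, hV2, integral_const_mul] at h2
    exact h2
  have hmk := mul_meas_ge_le_integral_of_nonneg (μ := volume.restrict Sq) (f := H)
    (ae_of_all _ hHnn) hHint (V * Real.log (‖v₁‖⁻¹))
  have hmono : (volume (Sq ∩ {x | ∃ p ∈ closedBall (0 : ℂ × ℂ) s, S (cx x + p + D v₁) = 0})).toReal
      ≤ (volume.restrict Sq).real {x | V * Real.log (‖v₁‖⁻¹) ≤ H x} := by
    rw [Measure.real, Measure.restrict_apply' Sq_meas]
    refine ENNReal.toReal_mono ?_ ?_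
    · exact (lt_of_le_of_lt (measure_mono inter_subset_right) Sq_compact.measure_lt_top).ne
    · refine measure_mono fun x hx => ⟨hbad x hx.2, hx.1⟩
  have hfin : V * (κ * Real.log (‖v₁‖⁻¹) * (volume (Sq ∩ {x | ∃ p ∈ closedBall (0 : ℂ × ℂ) s,
      S (cx x + p + D v₁) = 0})).toReal) ≤ V * (16 * (A - B)) := by
    calc _ = κ * (V * Real.log (‖v₁‖⁻¹) * (volume (Sq ∩ {x | ∃ p ∈ closedBall (0 : ℂ × ℂ) s,
          S (cx x + p + D v₁) = 0})).toReal) := by ring
      _ ≤ κ * (V * Real.log (‖v₁‖⁻¹) *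
          (volume.restrict Sq).real {x | V * Real.log (‖v₁‖⁻¹) ≤ H x}) := by
        gcongr
      _ ≤ κ * ∫ x in Sq, H x := by gcongr
      _ ≤ 16 * V * (A - B) := hup2
      _ = V * (16 * (A - B)) := by ring
  exact le_of_mul_le_mul_left hfin hVpos

end Vale.Agent.P097.H185.TL
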