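import Vale.Agent.P097.H185.TLG
import Vale.Agent.P097.H593.T3

/-!
The T-lemma with a weight without compact support (Gaussian): assembly.
-/

open Metric Set Filter MeasureTheory Real
open scoped Topology

namespace Vale.Agent.P097.H185.TL

open Vale.Agent.P097.H593 (JJ JN)

variable {S : ℂ × ℂ → ℂ} {φ : ℝ × ℝ → ℝ} {K1 K2 : Set (ℝ × ℝ)} {L : ℝ}

/-- the hypotheses of the assembly, weight without compact support -/
structure THG (S : ℂ × ℂ → ℂ) (K1 K2 : Set (ℝ × ℝ)) (φ : ℝ × ℝ → ℝ) (L : ℝ) : Prop where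
  o1 : IsOpen K1
  o2 : IsOpen K2
  cv : Convex ℝ K2
  sub : K1 ⊆ K2
  ne : K1.Nonempty
  cone1 : ∀ Y ∈ K1, ∀ r : ℝ, 0 < r → r • Y ∈ K1
  cone2 : ∀ Y ∈ K2, ∀ r : ℝ, 0 < r → r • Y ∈ K2
  hS : DifferentiableOn ℂ S (TT K2)
  hS1 : ∀ z ∈ TT K1, S z ≠ 0
  φc : Continuous φ
  φ0 : ∀ x, 0 ≤ φ x
  φi : ∀ n : ℕ, Integrable (fun x => φ x * (1 + ‖x‖) ^ n)
  φ1 : ∃ κ > 0, ∀ x ∈ Sq, κ ≤ φ x
  up : ∀ Y : Set (ℝ × ℝ), IsCompact Y → Y ⊆ K2 → ∃ (C : ℝ) (n : ℕ), ∀ z ∈ TT Y,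
    Real.log ‖S z‖ ≤ C * (1 + ‖re2 z‖) ^ n
  lo : ∀ Y : Set (ℝ × ℝ), IsCompact Y → Y ⊆ K1 → ∃ (C : ℝ) (n : ℕ), ∀ z ∈ TT Y,
    -Real.log ‖S z‖ ≤ C * (1 + ‖re2 z‖) ^ n
  /-- (T3) -/
  t3 : ∀ C ⊆ K2, IsCompact C → ∀ ε > 0, ∃ δ > 0, ∀ z : ℂ × ℂ, ‖z‖ < δ →
    (∃ r : ℝ, 0 < r ∧ ∃ y ∈ C, im2 z = r • y) → ∃ c > 0, JN S φ c z ≤ L + ε
  /-- (T2) -/
  t2 : ∀ C ⊆ K1, IsCompact C → ∀ ε > 0, ∃ δ > 0, ∀ z : ℂ × ℂ, ‖z‖ < δ →
    (∃ r : ℝ, 0 < r ∧ ∃ y ∈ C, im2 z = r • y) → L - ε ≤ JJ S φ z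

lemma JN_eq_Ph (c : ℝ) (z : ℂ × ℂ) : JN S φ c z = Ph S φ c z := by
  unfold JN Ph lg
  congr 1
  funext x
  have : (z.1 + (x.1 : ℂ), z.2 + (x.2 : ℂ)) = cx x + z := by
    unfold cx
    ext
    · simp [add_comm]
    · simp [add_comm]
  rw [this, mul_comm]

lemma JJ_eq' (z : ℂ × ℂ) : JJ S φ z = ∫ x, φ x * Real.log ‖S (cx x + z)‖ := by
  unfold JJ
  congr 1
  funext x
  have : (z.1 + (x.1 : ℂ), z.2 + (x.2 : ℂ)) = cx x + z := by
    unfold cx
    ext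
    · simp [add_comm]
    · simp [add_comm]
  rw [this, mul_comm]

lemma re2_add (z w : ℂ × ℂ) : re2 (z + w) = re2 z + re2 w := by
  unfold re2; ext <;> simp

lemma re2_cx (x : ℝ × ℝ) : re2 (cx x) = x := by
  unfold re2 cx; ext <;> simp

lemma abs_lg_le {c : ℝ} (hc : 0 < c) {w : ℂ} {B : ℝ} (hB : 0 ≤ B) (h : Real.log ‖w‖ ≤ B) :
    |lg c w| ≤ |Real.log c| + B := by
  rw [abs_le]
  constructor
  · have := logc_le_lg (w := w) hc
    have := neg_abs_le (Real.log c)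
    linarith
  · unfold lg
    rcases le_total ‖w‖ c with h1 | h1
    · rw [max_eq_right h1]
      have := le_abs_self (Real.log c)
      linarith
    · rw [max_eq_left h1]
      have := abs_nonneg (Real.log c)
      linarith

lemma growth_aux {R : ℝ} (hR : 0 ≤ R) {x : ℝ × ℝ} {z : ℂ × ℂ} (hz : ‖re2 z‖ ≤ R) {C : ℝ} {n : ℕ} :
    C * (1 + ‖re2 (cx x + z)‖) ^ n ≤ |C| * (1 + R) ^ n * (1 + ‖x‖) ^ n := by
  rw [re2_add, re2_cx, mul_assoc, ← mul_pow]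
  have h1 : 1 + ‖x + re2 z‖ ≤ (1 + R) * (1 + ‖x‖) := by
    have := norm_add_le x (re2 z)
    nlinarith [norm_nonneg x, mul_nonneg hR (norm_nonneg x)]
  calc C * (1 + ‖x + re2 z‖) ^ n ≤ |C| * (1 + ‖x + re2 z‖) ^ n := by
        gcongr; exact le_abs_self C
    _ ≤ |C| * ((1 + R) * (1 + ‖x‖)) ^ n := by gcongr

lemma bdd_re {P : Set (ℂ × ℂ)} (hP : IsCompact P) : ∃ R : ℝ, 0 ≤ R ∧ ∀ z ∈ P, ‖re2 z‖ ≤ R := by
  obtain ⟨R, hR⟩ := hP.isBounded.exists_norm_le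
  exact ⟨max R 0, le_max_right _ _,
    fun z hz => ((norm_re2_le z).trans (hR z hz)).trans (le_max_left _ _)⟩

/-- domination on compact sets of centres -/
lemma THG.dom (h : THG S K1 K2 φ L) {P : Set (ℂ × ℂ)} (hP : IsCompact P) (hPU : P ⊆ TT K2) {c : ℝ}
    (hc : 0 < c) : ∃ g : ℝ × ℝ → ℝ, Integrable g ∧ ∀ z ∈ P, ∀ x,
      |φ x * lg c (S (cx x + z))| ≤ g x := by
  obtain ⟨C, n, hC⟩ := h.up (im2 '' P) (hP.image im2_continuous) (by
    rintro _ ⟨z, hz, rfl⟩; exact hPU hz)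
  obtain ⟨R, hR0, hR⟩ := bdd_re hP
  refine ⟨fun x => |Real.log c| * (φ x * (1 + ‖x‖) ^ 0) +
    |C| * (1 + R) ^ n * (φ x * (1 + ‖x‖) ^ n), ((h.φi 0).const_mul _).add
      ((h.φi n).const_mul _), fun z hz x => ?_⟩
  have hmem : cx x + z ∈ TT (im2 '' P) := by
    show im2 (cx x + z) ∈ im2 '' P
    rw [im2_add, im2_cx, zero_add]; exact ⟨z, hz, rfl⟩
  have h1 := (hC _ hmem).trans (growth_aux hR0 (hR z hz))
  have h2 := abs_lg_le hc (by positivity) h1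
  rw [abs_mul, abs_of_nonneg (h.φ0 x)]
  calc φ x * |lg c (S (cx x + z))| ≤
        φ x * (|Real.log c| + |C| * (1 + R) ^ n * (1 + ‖x‖) ^ n) :=
        mul_le_mul_of_nonneg_left h2 (h.φ0 x)
    _ = _ := by simp only [pow_zero]; ring

lemma THG.int0 (h : THG S K1 K2 φ L) {z : ℂ × ℂ} (hz : z ∈ TT K1) :
    Integrable (fun x => φ x * Real.log ‖S (cx x + z)‖) := by
  obtain ⟨C, n, hC⟩ := h.up {im2 z} isCompact_singleton (by
    rintro _ rfl; exact h.sub hz)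
  obtain ⟨C', n', hC'⟩ := h.lo {im2 z} isCompact_singleton (by
    rintro _ rfl; exact hz)
  have hR : ‖re2 z‖ ≤ ‖re2 z‖ := le_refl _
  have hmem : ∀ x : ℝ × ℝ, cx x + z ∈ TT {im2 z} := by
    intro x
    show im2 (cx x + z) ∈ ({im2 z} : Set (ℝ × ℝ))
    rw [im2_add, im2_cx, zero_add]; exact rfl
  have hmem1 : ∀ x : ℝ × ℝ, cx x + z ∈ TT K1 := by
    intro x
    show im2 (cx x + z) ∈ K1
    rw [im2_add, im2_cx, zero_add]; exact hz
  have hint := ((h.φi n).const_mul (|C| * (1 + ‖re2 z‖) ^ n)).add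
    ((h.φi n').const_mul (|C'| * (1 + ‖re2 z‖) ^ n'))
  have hcont : Continuous (fun x => φ x * Real.log ‖S (cx x + z)‖) := by
    have hm : Continuous (fun x : ℝ × ℝ => cx x + z) := by fun_prop
    have h1 : Continuous (fun x : ℝ × ℝ => S (cx x + z)) := by
      rw [← continuousOn_univ]
      exact h.hS.continuousOn.comp hm.continuousOn (fun x _ => h.sub (hmem1 x))
    exact h.φc.mul (h1.norm.log (fun x => norm_ne_zero_iff.2 (h.hS1 _ (hmem1 x))))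
  refine hint.mono' hcont.aestronglyMeasurable (ae_of_all _ fun x => ?_)
  have h1 := (hC _ (hmem x)).trans (growth_aux (norm_nonneg _) hR)
  have h2 := (hC' _ (hmem x)).trans (growth_aux (norm_nonneg _) hR)
  have h3 : |Real.log ‖S (cx x + z)‖| ≤ |C| * (1 + ‖re2 z‖) ^ n * (1 + ‖x‖) ^ n +
      |C'| * (1 + ‖re2 z‖) ^ n' * (1 + ‖x‖) ^ n' := by
    have p1 : 0 ≤ |C| * (1 + ‖re2 z‖) ^ n * (1 + ‖x‖) ^ n := by positivity
    have p2 : 0 ≤ |C'| * (1 + ‖re2 z‖) ^ n' * (1 + ‖x‖) ^ n' := by positivity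
    rw [abs_le]; constructor <;> linarith
  rw [Real.norm_eq_abs, abs_mul, abs_of_nonneg (h.φ0 x)]
  calc φ x * |Real.log ‖S (cx x + z)‖| ≤ φ x * (|C| * (1 + ‖re2 z‖) ^ n * (1 + ‖x‖) ^ n +
      |C'| * (1 + ‖re2 z‖) ^ n' * (1 + ‖x‖) ^ n') := mul_le_mul_of_nonneg_left h3 (h.φ0 x)
    _ = _ := by simp only [Pi.add_apply]; ring

lemma THG.hU (h : THG S K1 K2 φ L) : IsOpen (TT K2) := h.o2.preimage im2_continuous

lemma THG.hUx (_h : THG S K1 K2 φ L) : ∀ x, ∀ z ∈ TT K2, cx x + z ∈ TT K2 := by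
  intro x z hz
  show im2 (cx x + z) ∈ K2
  rw [im2_add, im2_cx, zero_add]; exact hz

lemma THG.contx (h : THG S K1 K2 φ L) {c : ℝ} (hc : 0 < c) {z : ℂ × ℂ} (hz : z ∈ TT K2) :
    Continuous (fun x => φ x * lg c (S (cx x + z))) := by
  have hm : Continuous (fun x : ℝ × ℝ => cx x + z) := by fun_prop
  have h1 : Continuous (fun x : ℝ × ℝ => S (cx x + z)) := by
    rw [← continuousOn_univ]
    exact h.hS.continuousOn.comp hm.continuousOn (fun x _ => h.hUx x z hz)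
  exact h.φc.mul ((lg_continuous hc).comp h1)

lemma THG.Ph_int (h : THG S K1 K2 φ L) {c : ℝ} (hc : 0 < c) {z : ℂ × ℂ} (hz : z ∈ TT K2) :
    Integrable (fun x => φ x * lg c (S (cx x + z))) := by
  obtain ⟨g, hg, hd⟩ := h.dom isCompact_singleton (singleton_subset_iff.2 hz) hc
  exact hg.mono' (h.contx hc hz).aestronglyMeasurable
    (ae_of_all _ fun x => by rw [Real.norm_eq_abs]; exact hd z rfl x)

lemma THG.Ph_cont (h : THG S K1 K2 φ L) {c : ℝ} (hc : 0 < c) {z : ℂ × ℂ} (hz : z ∈ TT K2) :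
    ContinuousAt (Ph S φ c) z := by
  obtain ⟨r, hr, hrs⟩ := Metric.nhds_basis_closedBall.mem_iff.1 (h.hU.mem_nhds hz)
  obtain ⟨g, hg, hd⟩ := h.dom (isCompact_closedBall z r) hrs hc
  have hev : ∀ᶠ w in 𝓝 z, w ∈ closedBall z r := closedBall_mem_nhds z hr
  unfold Ph
  refine continuousAt_of_dominated (bound := g) ?_ ?_ hg ?_
  · filter_upwards [hev] with w hw
    exact (h.contx hc (hrs hw)).aestronglyMeasurable
  · filter_upwards [hev] with w hw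
    exact ae_of_all _ fun x => by rw [Real.norm_eq_abs]; exact hd w hw x
  · refine ae_of_all _ fun x => ?_
    have h1 : ContinuousAt S (cx x + z) :=
      h.hS.continuousOn.continuousAt (h.hU.mem_nhds (h.hUx x z hz))
    have h2 : ContinuousAt (fun w => S (cx x + w)) z := by
      have h3 : ContinuousAt (fun w : ℂ × ℂ => cx x + w) z := by fun_prop
      exact ContinuousAt.comp (f := fun w : ℂ × ℂ => cx x + w) (g := S) h1 h3
    exact continuousAt_const.mul ((lg_continuous hc).continuousAt.comp h2)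

lemma THG.Ph_mono (h : THG S K1 K2 φ L) {c d : ℝ} (hc : 0 < c)
    (hcd : c ≤ d) {z : ℂ × ℂ} (hz : z ∈ TT K2) : Ph S φ c z ≤ Ph S φ d z := by
  refine integral_mono (h.Ph_int hc hz) (h.Ph_int (hc.trans_le hcd) hz) fun x => ?_
  exact mul_le_mul_of_nonneg_left (lg_mono hc hcd) (h.φ0 x)

lemma THG.unif_c (h : THG S K1 K2 φ L)
    {Z : Set (ℂ × ℂ)} (hZ : IsCompact Z) (hZU : Z ⊆ TT K2) {A B : ℝ} (hAB : A < B)
    (hh : ∀ z ∈ Z, ∃ c > 0, Ph S φ c z ≤ A) :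
    ∃ c > 0, ∀ z ∈ Z, Ph S φ c z ≤ B := by
  have key : ∃ c > 0, ∀ z ∈ Z, z ∈ TT K2 → Ph S φ c z ≤ B := by
    refine hZ.induction_on (p := fun t => ∃ c > 0, ∀ z ∈ t, z ∈ TT K2 → Ph S φ c z ≤ B) ?_ ?_ ?_ ?_
    · exact ⟨1, one_pos, fun z hz => absurd hz (notMem_empty z)⟩
    · rintro s t hst ⟨c, hc, h1⟩
      exact ⟨c, hc, fun z hz => h1 z (hst hz)⟩
    · rintro s t ⟨c, hc, h1⟩ ⟨d, hd, h2⟩
      have hm : 0 < min c d := lt_min hc hd
      refine ⟨min c d, hm, fun z hz hzU => ?_⟩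
      rcases hz with hz | hz
      · exact (h.Ph_mono hm (min_le_left _ _) hzU).trans (h1 z hz hzU)
      · exact (h.Ph_mono hm (min_le_right _ _) hzU).trans (h2 z hz hzU)
    · intro z hz
      obtain ⟨c, hc, h1⟩ := hh z hz
      have h2 : ContinuousAt (Ph S φ c) z := h.Ph_cont hc (hZU hz)
      have h3 : ∀ᶠ w in 𝓝 z, Ph S φ c w < B := h2.eventually_lt_const (h1.trans_lt hAB)
      exact ⟨{w | Ph S φ c w < B}, mem_nhdsWithin_of_mem_nhds h3, c, hc,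
        fun w hw _ => (le_of_lt hw)⟩
  obtain ⟨c, hc, h1⟩ := key
  exact ⟨c, hc, fun z hz => h1 z hz (hZU hz)⟩

theorem THG.loc (h : THG S K1 K2 φ L) {w₀ : ℂ × ℂ} (hw : w₀ ∈ TT K2) :
    ∃ y > 0, ∀ η > 0, ∃ ρ₀ > 0, ∀ ρ ∈ Ioo (0:ℝ) ρ₀,
      volume (Bad S ρ (closedBall w₀ y)) ≤ ENNReal.ofReal η := by
  obtain ⟨Y₀, hY₀⟩ := h.ne
  obtain ⟨κ, hκ, hφκ⟩ := h.φ1
  set Y := im2 w₀ with hY
  have hYK : Y ∈ K2 := hw
  set seg := segment ℝ Y₀ Y with hseg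
  have hsegc : IsCompact seg := by
    rw [hseg, segment_eq_image']
    exact isCompact_Icc.image (by fun_prop)
  have hsegK : seg ⊆ K2 := h.cv.segment_subset (h.sub hY₀) hYK
  obtain ⟨m₁, hm₁, hm₁s⟩ := hsegc.exists_cthickening_subset_open h.o2 hsegK
  obtain ⟨m₂, hm₂, hm₂s⟩ := Metric.nhds_basis_closedBall.mem_iff.1 (h.o1.mem_nhds hY₀)
  set m := min m₁ m₂ with hm
  have hmpos : 0 < m := lt_min hm₁ hm₂
  set C2 := cthickening m seg with hC2
  set C1 := closedBall Y₀ m with hC1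
  have hC2c : IsCompact C2 := hsegc.cthickening
  have hC1c : IsCompact C1 := isCompact_closedBall _ _
  have hC2K : C2 ⊆ K2 := (cthickening_mono (min_le_left _ _) seg).trans hm₁s
  have hC1K : C1 ⊆ K1 := (closedBall_subset_closedBall (min_le_right _ _)).trans hm₂s
  set V := Y - Y₀ with hV
  set e := m / (2 * (‖V‖ + 1)) with he
  have hepos : 0 < e := by positivity
  have heV : e * ‖V‖ ≤ m / 2 := by
    rw [he, div_mul_eq_mul_div, div_le_div_iff₀ (by positivity) (by positivity)]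
    nlinarith [norm_nonneg V]
  set α : ℝ := 1 / (1 + 2 * e) with hα
  have hα0 : 0 < α := by positivity
  have hα1 : α < 1 := by rw [hα, div_lt_one (by positivity)]; linarith
  -- the disc
  set Z : ℂ → ℂ × ℂ := fun v => cx (re2 w₀) + ii Y₀ + tau α v • ii V with hZ
  set y := m / 4 with hy
  have hypos : 0 < y := by positivity
  have hZim : ∀ v, im2 (Z v) = Y₀ + (tau α v).re • V := by
    intro v
    rw [hZ]; simp only
    rw [im2_add, im2_add, im2_cx, im2_ii, im2_smul_ii, zero_add]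
  have hZ0 : ∀ q ∈ closedBall (0 : ℂ × ℂ) (2 * y), im2 (q + Z 0) ∈ C1 := by
    intro q hq
    rw [mem_closedBall_zero_iff] at hq
    rw [im2_add, hZim, tau_zero, hC1, mem_closedBall, dist_eq_norm]
    have : im2 q + (Y₀ + (0:ℂ).re • V) - Y₀ = im2 q := by simp
    rw [this]
    have := norm_im2_le q
    linarith
  have hZv : ∀ q ∈ closedBall (0 : ℂ × ℂ) (2 * y), ∀ v ∈ closedBall (0:ℂ) 1,
      im2 (q + Z v) ∈ C2 := by
    intro q hq v hv
    rw [mem_closedBall_zero_iff] at hq hv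
    obtain ⟨h1, h2⟩ := tau_re hepos hα hv
    set t := (tau α v).re with ht
    set t' := max 0 (min 1 t) with ht'
    have ht'0 : 0 ≤ t' := le_max_left _ _
    have ht'1 : t' ≤ 1 := max_le zero_le_one (min_le_left _ _)
    have htt : |t - t'| ≤ e := by
      rw [abs_le]
      rcases le_total t 0 with h3 | h3
      · have : t' = 0 := by
          rw [ht', min_eq_right (by linarith), max_eq_left h3]
        rw [this]; constructor <;> linarith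
      · rcases le_total t 1 with h4 | h4
        · have : t' = t := by rw [ht', min_eq_right h4, max_eq_right h3]
          rw [this]; constructor <;> linarith
        · have : t' = 1 := by rw [ht', min_eq_left h4, max_eq_right zero_le_one]
          rw [this]; constructor <;> linarith
    refine mem_cthickening_of_dist_le _ (Y₀ + t' • V) m seg ?_ ?_
    · rw [hseg, segment_eq_image']
      exact ⟨t', ⟨ht'0, ht'1⟩, rfl⟩
    · rw [im2_add, hZim, dist_eq_norm]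
      have : im2 q + (Y₀ + t • V) - (Y₀ + t' • V) = im2 q + (t - t') • V := by
        rw [sub_smul]; abel
      rw [this]
      calc ‖im2 q + (t - t') • V‖ ≤ ‖im2 q‖ + ‖(t - t') • V‖ := norm_add_le _ _
        _ = ‖im2 q‖ + |t - t'| * ‖V‖ := by rw [norm_smul, Real.norm_eq_abs]
        _ ≤ 2 * y + e * ‖V‖ := by
          gcongr
          exact (norm_im2_le q).trans hq
        _ ≤ m := by linarith
  have hZ1 : Z (vone α) = w₀ := by
    rw [hZ]; simp only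
    rw [tau_vone hα0 hα1, one_smul, add_assoc]
    have : ii Y₀ + ii V = ii Y := by
      rw [hV]; unfold ii; ext <;> simp <;> ring
    rw [this]; exact re_im w₀
  have hZd : DifferentiableOn ℂ Z (ball 0 α⁻¹) := by
    have := tau_diff hα0
    rw [hZ]
    exact ((this.smul_const (ii V)).const_add _)
  have hO : closedBall (0:ℂ) 1 ⊆ ball 0 α⁻¹ := closedBall_subset_ball ((one_lt_inv₀ hα0).2 hα1)
  have hZc : ContinuousOn Z (closedBall (0:ℂ) 1) := hZd.continuousOn.mono hO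
  -- compact set of positions and a bound for it
  set P := (fun r : (ℂ × ℂ) × ℂ => r.1 + Z r.2) ''
    (closedBall (0 : ℂ × ℂ) (2 * y) ×ˢ closedBall (0:ℂ) 1) with hP
  have hPc : IsCompact P := by
    refine ((isCompact_closedBall _ _).prod (isCompact_closedBall _ _)).image_of_continuousOn ?_
    exact continuous_fst.continuousOn.add
      (hZc.comp continuous_snd.continuousOn (fun r hr => hr.2))
  obtain ⟨R, hRpos, hR⟩ : ∃ R > 0, ∀ z ∈ P, ‖z‖ ≤ R := by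
    obtain ⟨R, hR⟩ := hPc.isBounded.exists_norm_le
    exact ⟨max R 1, by positivity, fun z hz => (hR z hz).trans (le_max_left _ _)⟩
  refine ⟨y, hypos, fun η hη => ?_⟩
  set ℓ := Real.log (‖vone α‖⁻¹) with hℓ
  have hℓpos : 0 < ℓ :=
    Real.log_pos ((one_lt_inv₀ (norm_pos_iff.2 (vone_ne hα0))).2 (norm_vone hα0 hα1))
  set ε := η * (κ * ℓ) / 48 with hε
  have hεpos : 0 < ε := by positivity
  obtain ⟨δ₃, hδ₃, H3⟩ := h.t3 C2 hC2K hC2c ε hεpos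
  obtain ⟨δ₂, hδ₂, H2⟩ := h.t2 C1 hC1K hC1c ε hεpos
  refine ⟨min δ₂ δ₃ / (2 * R), by positivity, fun ρ hρ => ?_⟩
  obtain ⟨hρ0, hρ1⟩ := hρ
  have hρR : ρ * R < min δ₂ δ₃ := by
    rw [lt_div_iff₀ (by positivity)] at hρ1
    nlinarith
  have hnorm : ∀ z ∈ P, ‖(ρ : ℂ) • z‖ < min δ₂ δ₃ := by
    intro z hz
    rw [norm_smul, Complex.norm_real, Real.norm_eq_abs, abs_of_pos hρ0]
    calc ρ * ‖z‖ ≤ ρ * R := by
          gcongr
          exact hR z hz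
      _ < _ := hρR
  -- uniform c
  have hPim : ∀ z ∈ P, im2 z ∈ C2 := by
    rintro z ⟨r, hr, rfl⟩
    exact hZv r.1 hr.1 r.2 hr.2
  set P' := (fun z : ℂ × ℂ => (ρ : ℂ) • z) '' P with hP'
  have hP'c : IsCompact P' := hPc.image (by fun_prop)
  have hP'U : P' ⊆ TT K2 := by
    rintro z ⟨z', hz', rfl⟩
    show im2 ((ρ : ℂ) • z') ∈ K2
    rw [im2_smul]
    exact h.cone2 _ (hC2K (hPim z' hz')) ρ hρ0
  obtain ⟨c, hc, hcP⟩ : ∃ c > 0, ∀ z ∈ P', Ph S φ c z ≤ L + 2 * ε := by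
    refine h.unif_c hP'c hP'U (A := L + ε) (by linarith) ?_
    rintro z ⟨z', hz', rfl⟩
    obtain ⟨c, hc, h1⟩ := H3 ((ρ : ℂ) • z') ((hnorm z' hz').trans_le (min_le_right _ _))
      ⟨ρ, hρ0, im2 z', hPim z' hz', im2_smul ρ z'⟩
    refine ⟨c, hc, ?_⟩
    rwa [JN_eq_Ph] at h1
  -- the scaled disc
  set D : ℂ → ℂ × ℂ := fun v => (ρ : ℂ) • Z v with hD
  have hdat : Dat S (TT K2) D (ball 0 α⁻¹) :=
    { hU := h.hU
      hS := h.hS
      hO := isOpen_ball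
      hD := hZd.const_smul (ρ : ℂ)
      hsub := hO }
  have hq : ∀ q ∈ closedBall (0 : ℂ × ℂ) (2 * (ρ * y)), ∃ q' ∈ closedBall (0 : ℂ × ℂ) (2 * y),
      q = (ρ : ℂ) • q' := by
    intro q hq
    have hρc : (ρ : ℂ) ≠ 0 := by exact_mod_cast hρ0.ne'
    refine ⟨(ρ : ℂ)⁻¹ • q, ?_, ?_⟩
    · rw [mem_closedBall_zero_iff] at hq ⊢
      rw [norm_smul, norm_inv, Complex.norm_real, Real.norm_eq_abs, abs_of_pos hρ0]
      rw [inv_mul_le_iff₀ hρ0]
      linarith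
    · rw [smul_smul, mul_inv_cancel₀ hρc, one_smul]
  have hadm : ∀ x : ℝ × ℝ, ∀ q ∈ closedBall (0 : ℂ × ℂ) (2 * (ρ * y)),
      cx x + q ∈ Adm S (TT K2) D := by
    intro x q hqm
    obtain ⟨q', hq', rfl⟩ := hq q hqm
    constructor
    · intro v hv
      show im2 (cx x + (ρ : ℂ) • q' + (ρ : ℂ) • Z v) ∈ K2
      rw [add_assoc, ← smul_add, im2_add, im2_cx, zero_add, im2_smul]
      exact h.cone2 _ (hC2K (hZv q' hq' v hv)) ρ hρ0
    · refine h.hS1 _ ?_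
      show im2 (cx x + (ρ : ℂ) • q' + (ρ : ℂ) • Z 0) ∈ K1
      rw [add_assoc, ← smul_add, im2_add, im2_cx, zero_add, im2_smul]
      exact h.cone1 _ (hC1K (hZ0 q' hq')) ρ hρ0
  have hcen : ∀ q' : ℂ × ℂ, ∀ v : ℂ, ∀ x : ℝ × ℝ,
      cx x + (ρ : ℂ) • q' + D v = cx x + (ρ : ℂ) • (q' + Z v) := by
    intro q' v x
    show cx x + (ρ : ℂ) • q' + (ρ : ℂ) • Z v = _
    rw [smul_add (ρ : ℂ) q' (Z v), add_assoc]
  obtain ⟨g, hg, hgd⟩ := h.dom hP'c hP'U hc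
  have hcP1 : ∀ q' ∈ closedBall (0 : ℂ × ℂ) (2 * y), ∀ v ∈ closedBall (0:ℂ) 1,
      q' + Z v ∈ P := fun q' hq' v hv => ⟨(q', v), ⟨hq', hv⟩, rfl⟩
  have hmain := hdat.disc_measureG hc (s := ρ * y) (by positivity) hadm h.φc h.φ0 hκ hφκ
    (A := L + 2 * ε) (B := L - ε) (by
      intro q hqm
      obtain ⟨q', hq', rfl⟩ := hq q hqm
      refine ⟨g, hg, fun v hv x => ?_⟩
      rw [hcen]
      exact hgd _ ⟨_, hcP1 q' hq' v (sphere_subset_closedBall hv), rfl⟩ x) (by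
      intro q hqm
      obtain ⟨q', hq', rfl⟩ := hq q hqm
      simp only [hcen]
      refine h.int0 ?_
      show im2 ((ρ : ℂ) • (q' + Z 0)) ∈ K1
      rw [im2_smul]
      exact h.cone1 _ (hC1K (hZ0 q' hq')) ρ hρ0) (by
      intro q hqm v hv
      obtain ⟨q', hq', rfl⟩ := hq q hqm
      have h1 := hcP _ ⟨_, hcP1 q' hq' v (sphere_subset_closedBall hv), rfl⟩
      unfold Ph at h1
      simp only [hcen]
      exact h1) (by
      intro q hqm
      obtain ⟨q', hq', rfl⟩ := hq q hqm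
      have h1 := H2 ((ρ : ℂ) • (q' + Z 0))
        ((hnorm _ (hcP1 q' hq' 0 (by simp))).trans_le (min_le_left _ _))
        ⟨ρ, hρ0, im2 (q' + Z 0), hZ0 q' hq', im2_smul ρ _⟩
      rw [JJ_eq'] at h1
      simp only [hcen]
      exact h1) (norm_vone hα0 hα1) (vone_ne hα0)
  have hval : 16 * (L + 2 * ε - (L - ε)) = κ * ℓ * η := by rw [hε]; ring
  rw [hval] at hmain
  have hle := le_of_mul_le_mul_left hmain (mul_pos hκ hℓpos)
  have hsub : Bad S ρ (closedBall w₀ y) ⊆ Sq ∩ {x | ∃ p ∈ closedBall (0 : ℂ × ℂ) (ρ * y),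
      S (cx x + p + D (vone α)) = 0} := by
    rintro x ⟨hx, w, hw', h0⟩
    refine ⟨hx, (ρ : ℂ) • (w - w₀), ?_, ?_⟩
    · rw [mem_closedBall_zero_iff, norm_smul, Complex.norm_real, Real.norm_eq_abs, abs_of_pos hρ0]
      rw [mem_closedBall, dist_eq_norm] at hw'
      gcongr
    · rw [hD]; simp only
      rw [hZ1, add_assoc, ← smul_add, sub_add_cancel]
      exact h0
  have hfin : volume (Sq ∩ {x | ∃ p ∈ closedBall (0 : ℂ × ℂ) (ρ * y),
      S (cx x + p + D (vone α)) = 0}) ≠ ⊤ :=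
    (lt_of_le_of_lt (measure_mono inter_subset_left) Sq_compact.measure_lt_top).ne
  calc volume (Bad S ρ (closedBall w₀ y)) ≤ volume (Sq ∩ {x | ∃ p ∈ closedBall (0 : ℂ × ℂ) (ρ * y),
      S (cx x + p + D (vone α)) = 0}) := measure_mono hsub
    _ = ENNReal.ofReal (volume (Sq ∩ {x | ∃ p ∈ closedBall (0 : ℂ × ℂ) (ρ * y),
      S (cx x + p + D (vone α)) = 0})).toReal := (ENNReal.ofReal_toReal hfin).symm
    _ ≤ ENNReal.ofReal η := ENNReal.ofReal_le_ofReal hle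

/-- small measure of bad translations, compact sets of positions -/
theorem THG.small (h : THG S K1 K2 φ L) {W : Set (ℂ × ℂ)} (hW : IsCompact W) (hWs : W ⊆ TT K2) :
    ∀ η > 0, ∃ ρ₀ > 0, ∀ ρ ∈ Ioo (0:ℝ) ρ₀, volume (Bad S ρ W) ≤ ENNReal.ofReal η := by
  refine hW.induction_on (p := fun A => ∀ η > 0, ∃ ρ₀ > 0, ∀ ρ ∈ Ioo (0:ℝ) ρ₀,
    volume (Bad S ρ A) ≤ ENNReal.ofReal η) ?_ ?_ ?_ ?_
  · intro η _
    refine ⟨1, one_pos, fun ρ _ => ?_⟩
    have : Bad S ρ ∅ = ∅ := by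
      ext x; simp [Bad]
    rw [this]; simp
  · intro s t hst h1 η hη
    obtain ⟨ρ₀, hρ₀, h2⟩ := h1 η hη
    refine ⟨ρ₀, hρ₀, fun ρ hρ => (measure_mono ?_).trans (h2 ρ hρ)⟩
    rintro x ⟨hx, w, hw, h0⟩
    exact ⟨hx, w, hst hw, h0⟩
  · intro s t h1 h2 η hη
    obtain ⟨ρ₁, hρ₁, h1'⟩ := h1 (η / 2) (by positivity)
    obtain ⟨ρ₂, hρ₂, h2'⟩ := h2 (η / 2) (by positivity)
    refine ⟨min ρ₁ ρ₂, lt_min hρ₁ hρ₂, fun ρ hρ => ?_⟩
    have hu : Bad S ρ (s ∪ t) ⊆ Bad S ρ s ∪ Bad S ρ t := by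
      rintro x ⟨hx, w, hw, h0⟩
      rcases hw with hw | hw
      · exact Or.inl ⟨hx, w, hw, h0⟩
      · exact Or.inr ⟨hx, w, hw, h0⟩
    calc volume (Bad S ρ (s ∪ t)) ≤ volume (Bad S ρ s ∪ Bad S ρ t) := measure_mono hu
      _ ≤ volume (Bad S ρ s) + volume (Bad S ρ t) := measure_union_le _ _
      _ ≤ ENNReal.ofReal (η / 2) + ENNReal.ofReal (η / 2) := by
        gcongr
        · exact h1' ρ ⟨hρ.1, hρ.2.trans_le (min_le_left _ _)⟩
        · exact h2' ρ ⟨hρ.1, hρ.2.trans_le (min_le_right _ _)⟩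
      _ = ENNReal.ofReal η := by
        rw [← ENNReal.ofReal_add (by positivity) (by positivity), add_halves]
  · intro w hw
    obtain ⟨y, hy, h1⟩ := h.loc (hWs hw)
    exact ⟨closedBall w y, mem_nhdsWithin_of_mem_nhds (closedBall_mem_nhds w hy), h1⟩

/-- **T-lemma, assembly, weight without compact support.** -/
theorem THG.main (h : THG S K1 K2 φ L) {W : Set (ℂ × ℂ)} (hW : IsCompact W) (hWs : W ⊆ TT K2) :
    ∃ ρ₀ > 0, ∀ ρ ∈ Ioo (0:ℝ) ρ₀, ∃ x ∈ Sq, ∀ w ∈ W, S (cx x + (ρ : ℂ) • w) ≠ 0 := by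
  obtain ⟨ρ₀, hρ₀, h1⟩ := h.small hW hWs (1 / 2) (by norm_num)
  refine ⟨ρ₀, hρ₀, fun ρ hρ => ?_⟩
  by_contra hcon
  push Not at hcon
  have hsub : Sq ⊆ Bad S ρ W := fun x hx => ⟨hx, hcon x hx⟩
  have h2 := (measure_mono hsub).trans (h1 ρ hρ)
  have h3 : volume Sq = 1 := by
    unfold Sq
    rw [Measure.volume_eq_prod, Measure.prod_prod, Real.volume_Icc]
    norm_num
  rw [h3] at h2
  have h4 : ENNReal.ofReal (1 / 2) < 1 := by
    rw [ENNReal.ofReal_lt_one]; norm_num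
  exact absurd h2 (not_le.2 h4)

end Vale.Agent.P097.H185.TL
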