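import Vale.Agent.P097.H185.TLH
import Vale.Agent.P097.TC.Defs

/-!
The literal T-lemma `TC.Tlem` from the Gaussian forms of (T2) and (T3).
-/

open Metric Set Filter MeasureTheory Real
open scoped Topology

namespace Vale.Agent.P097.H185.TL

open Vale.Agent.P097.H593 (JJ JN)

/-- Gaussian weight -/
noncomputable def Gw (x : ℝ × ℝ) : ℝ := Real.exp (-(x.1 ^ 2 + x.2 ^ 2))

lemma Gw_cont : Continuous Gw := by unfold Gw; fun_prop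

lemma Gw_pos (x : ℝ × ℝ) : 0 < Gw x := Real.exp_pos _

lemma Gw_sq : ∃ κ > 0, ∀ x ∈ Sq, κ ≤ Gw x := by
  refine ⟨Real.exp (-2), Real.exp_pos _, fun x hx => ?_⟩
  obtain ⟨⟨h1, h2⟩, ⟨h3, h4⟩⟩ := hx
  unfold Gw
  apply Real.exp_le_exp.2
  nlinarith

/-- one-dimensional moments of the Gaussian -/
lemma gauss_mom (n : ℕ) : Integrable (fun t : ℝ => Real.exp (-t ^ 2) * (1 + |t|) ^ n) := by
  have h1 : ∀ m : ℕ, Integrable (fun t : ℝ => Real.exp (-t ^ 2) * |t| ^ m) := by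
    intro m
    have h2 := integrable_rpow_mul_exp_neg_mul_sq (b := 1) one_pos (s := (m : ℝ))
      (by have : (0:ℝ) ≤ m := Nat.cast_nonneg m
          linarith)
    refine h2.norm.congr (ae_of_all _ fun t => ?_)
    simp only [norm_mul, Real.norm_eq_abs, Real.rpow_natCast, abs_pow, Real.abs_exp]
    rw [mul_comm]
    congr 2
    ring
  have h3 : (fun t : ℝ => Real.exp (-t ^ 2) * (1 + |t|) ^ n) = fun t =>
      ∑ m ∈ Finset.range (n + 1), (n.choose m : ℝ) * (Real.exp (-t ^ 2) * |t| ^ m) := by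
    funext t
    rw [add_comm (1:ℝ), add_pow, Finset.mul_sum]
    refine Finset.sum_congr rfl fun m _ => ?_
    rw [one_pow]; ring
  rw [h3]
  exact integrable_finsetSum _ fun m _ => (h1 m).const_mul _

lemma Gw_int (n : ℕ) : Integrable (fun x : ℝ × ℝ => Gw x * (1 + ‖x‖) ^ n) := by
  have h1 := (gauss_mom n).mul_prod (gauss_mom n)
  refine h1.mono' (Gw_cont.mul (by fun_prop)).aestronglyMeasurable (ae_of_all _ fun x => ?_)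
  rw [Real.norm_eq_abs, abs_of_nonneg (mul_nonneg (Gw_pos x).le (by positivity))]
  unfold Gw
  have e1 : Real.exp (-(x.1 ^ 2 + x.2 ^ 2)) = Real.exp (-x.1 ^ 2) * Real.exp (-x.2 ^ 2) := by
    rw [← Real.exp_add]; congr 1; ring
  have e2 : (1 + ‖x‖) ≤ (1 + |x.1|) * (1 + |x.2|) := by
    rw [Prod.norm_def, Real.norm_eq_abs, Real.norm_eq_abs]
    rcases le_total |x.1| |x.2| with h | h
    · rw [max_eq_right h]; nlinarith [abs_nonneg x.1, abs_nonneg x.2]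
    · rw [max_eq_left h]; nlinarith [abs_nonneg x.1, abs_nonneg x.2]
  calc Real.exp (-(x.1 ^ 2 + x.2 ^ 2)) * (1 + ‖x‖) ^ n
      ≤ Real.exp (-(x.1 ^ 2 + x.2 ^ 2)) * ((1 + |x.1|) * (1 + |x.2|)) ^ n := by gcongr
    _ = Real.exp (-x.1 ^ 2) * (1 + |x.1|) ^ n * (Real.exp (-x.2 ^ 2) * (1 + |x.2|) ^ n) := by
      rw [e1, mul_pow]; ring

open Vale.Agent.P097.TC (K1 K2 Tc ft ht bl)

lemma K1_open (k : ℝ) : IsOpen (K1 k) := by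
  unfold K1
  exact isOpen_lt (by fun_prop) (by fun_prop)

lemma K1_cone (k : ℝ) : ∀ Y ∈ K1 k, ∀ r : ℝ, 0 < r → r • Y ∈ K1 k := by
  intro Y hY r hr
  simp only [K1, mem_ofPred_eq, Prod.smul_snd, Prod.smul_fst, smul_eq_mul] at hY ⊢
  rw [abs_mul, abs_of_pos hr]
  nlinarith

lemma K2_cone (k : ℝ) : ∀ Y ∈ K2 k, ∀ r : ℝ, 0 < r → r • Y ∈ K2 k := by
  rintro Y ⟨h1, h2⟩ r hr
  constructor
  · simp only [Prod.smul_snd, Prod.smul_fst, smul_eq_mul]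
    nlinarith
  · simp only [Prod.smul_snd, Prod.smul_fst, smul_eq_mul]
    nlinarith

lemma K1_sub_K2 {k : ℝ} (h0 : 0 < k) (h1 : k < 1) : K1 k ⊆ K2 k := by
  intro Y hY
  simp only [K1, mem_ofPred_eq] at hY
  have h2 := abs_lt.1 hY
  have h3 : 0 < Y.1 := by
    have := abs_nonneg Y.2
    by_contra hc
    push Not at hc
    nlinarith
  constructor
  · nlinarith
  · nlinarith

lemma K1_ne {k : ℝ} (h0 : 0 < k) : (K1 k).Nonempty := ⟨(1, 0), by simp [K1, h0]⟩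

lemma zero_notMem_K2 (k : ℝ) : (0 : ℝ × ℝ) ∉ K2 k := by
  simp [K2]

/-- (T2), literal input -/
def T2i : Prop := ∀ {k : ℝ} {S : ℂ × ℂ → ℂ}, 0 < k → k < 1 → DifferentiableOn ℂ S (Tc (K2 k)) →
  (∀ z ∈ Tc (K1 k), S z ≠ 0) →
  (∀ Y : Set (ℝ × ℝ), IsCompact Y → Y ⊆ K2 k → ∃ (C : ℝ) (n : ℕ), ∀ z ∈ Tc Y,
    Real.log ‖S z‖ ≤ C * (1 + ‖ft z‖) ^ n) →
  (∀ Y : Set (ℝ × ℝ), IsCompact Y → Y ⊆ K1 k → ∃ (C : ℝ) (n : ℕ), ∀ z ∈ Tc Y,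
    -Real.log ‖S z‖ ≤ C * (1 + ‖ft z‖) ^ n) →
  ∃ L : ℝ, ∀ ε > 0, ∃ δ > 0, ∀ z ∈ Tc (K1 k), ‖z‖ < δ → |JJ S Gw z - L| ≤ ε

/-- (T3), literal input -/
def T3i : Prop := ∀ {k : ℝ} {S : ℂ × ℂ → ℂ}, 0 < k → k < 1 → DifferentiableOn ℂ S (Tc (K2 k)) →
  (∀ z ∈ Tc (K1 k), S z ≠ 0) →
  (∀ Y : Set (ℝ × ℝ), IsCompact Y → Y ⊆ K2 k → ∃ (C : ℝ) (n : ℕ), ∀ z ∈ Tc Y,
    Real.log ‖S z‖ ≤ C * (1 + ‖ft z‖) ^ n) →
  (∀ Y : Set (ℝ × ℝ), IsCompact Y → Y ⊆ K1 k → ∃ (C : ℝ) (n : ℕ), ∀ z ∈ Tc Y,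
    -Real.log ‖S z‖ ≤ C * (1 + ‖ft z‖) ^ n) →
  ∀ L : ℝ, (∀ Q : Set (ℝ × ℝ), IsCompact Q → Q ⊆ K1 k → ∀ ε > 0, ∃ δ > 0, ∀ z : ℂ × ℂ, ‖z‖ < δ →
      (∃ r : ℝ, 0 < r ∧ ∃ y ∈ Q, ht z = r • y) → JJ S Gw z ≤ L + ε) →
  ∀ Q : Set (ℝ × ℝ), IsCompact Q → Q ⊆ K2 k → ∀ ε > 0, ∃ δ > 0, ∀ z : ℂ × ℂ, ‖z‖ < δ →
      (∃ r : ℝ, 0 < r ∧ ∃ y ∈ Q, ht z = r • y) → ∃ c > 0, JN S Gw c z ≤ L + ε

theorem tlem_of (h2 : T2i) (h3 : T3i) : Vale.Agent.P097.TC.Tlem := by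
  intro k S h0 h1 hS hS1 hup hlo W hW hWs
  obtain ⟨L, hL⟩ := h2 h0 h1 hS hS1 hup hlo
  have hmem : ∀ (Q : Set (ℝ × ℝ)), Q ⊆ K1 k → ∀ z : ℂ × ℂ,
      (∃ r : ℝ, 0 < r ∧ ∃ y ∈ Q, ht z = r • y) → z ∈ Tc (K1 k) := by
    rintro Q hQ z ⟨r, hr, y, hy, hz⟩
    show ht z ∈ K1 k
    rw [hz]; exact K1_cone k y (hQ hy) r hr
  have hH : THG S (K1 k) (K2 k) Gw L :=
    { o1 := K1_open k
      o2 := Vale.Agent.P097.TC.isOpen_K2 k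
      cv := Vale.Agent.P097.TC.convex_K2 k
      sub := K1_sub_K2 h0 h1
      ne := K1_ne h0
      cone1 := K1_cone k
      cone2 := K2_cone k
      hS := hS
      hS1 := hS1
      φc := Gw_cont
      φ0 := fun x => (Gw_pos x).le
      φi := Gw_int
      φ1 := Gw_sq
      up := hup
      lo := hlo
      t3 := by
        intro C hC hCc ε hε
        refine h3 h0 h1 hS hS1 hup hlo L ?_ C hCc hC ε hε
        intro Q hQc hQ ε hε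
        obtain ⟨δ, hδ, h4⟩ := hL ε hε
        refine ⟨δ, hδ, fun z hz hzQ => ?_⟩
        have := (abs_le.1 (h4 z (hmem Q hQ z hzQ) hz)).2
        linarith
      t2 := by
        intro C hC hCc ε hε
        obtain ⟨δ, hδ, h4⟩ := hL ε hε
        refine ⟨δ, hδ, fun z hz hzQ => ?_⟩
        have := (abs_le.1 (h4 z (hmem C hC z hzQ) hz)).1
        linarith }
  obtain ⟨ρ₀, hρ₀, h5⟩ := hH.main hW hWs
  have hev : ∀ᶠ s in 𝓝[>] (0:ℝ), s ∈ Ioo (0:ℝ) ρ₀ := Ioo_mem_nhdsGT hρ₀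
  refine (hev.mono fun s hs => ?_).frequently
  obtain ⟨x, hx, h6⟩ := h5 s hs
  refine ⟨x, ?_, fun z hz => ?_⟩
  · obtain ⟨⟨a1, a2⟩, ⟨a3, a4⟩⟩ := hx
    rw [mem_closedBall_zero_iff, Prod.norm_def, Real.norm_eq_abs, Real.norm_eq_abs,
      abs_of_nonneg a1, abs_of_nonneg a3]
    exact max_le a2 a4
  · have h7 := h6 z hz
    have h8 : cx x + (s : ℂ) • z = bl x s z := by
      unfold cx bl
      ext <;> simp
    rwa [h8] at h7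

end Vale.Agent.P097.H185.TL
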