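import Vale.Agent.P097.H185.Tlem
import Vale.Agent.P097.H127.T2L
import Vale.Agent.P097.H593.T3G

/-!
The literal row A4.5: `tlem : TC.Tlem`.
-/

open Metric Set Filter MeasureTheory Real
open scoped Topology

namespace Vale.Agent.P097.H185.TL

open Vale.Agent.P097.H593 (JJ JN)
open Vale.Agent.P097.TC (K1 K2 Tc ft ht bl)

lemma gw_eq : Vale.Agent.P097.H127.gw = Gw := by
  funext x
  simp [Vale.Agent.P097.H127.gw, Gw, Vale.Agent.P097.H127.sq]

theorem t2i : T2i := by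
  intro k S h0 h1 hS hne hup hlo
  have h := Vale.Agent.P097.H127.T2L_lim h0 h1 hS hne hup hlo
  rw [gw_eq] at h
  exact h

lemma K2_add (k : ℝ) : ∀ y ∈ K2 k, ∀ y' ∈ K2 k, y + y' ∈ K2 k := by
  rintro y ⟨h1, h2⟩ y' ⟨h3, h4⟩
  constructor
  · simp only [Prod.fst_add, Prod.snd_add]; linarith
  · simp only [Prod.fst_add, Prod.snd_add]; linarith

theorem t3i : T3i := by
  intro k S h0 h1 hS hne hup hlo L hL Q hQ hQK ε hε
  obtain ⟨δ, hδ, h⟩ := Vale.Agent.P097.H593.T3G (K1_open k) (K1_cone k) (K1_ne h0)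
    (Vale.Agent.P097.TC.isOpen_K2 k) (K2_cone k) (K2_add k) (K1_sub_K2 h0 h1) hS
    (fun z hz => hne z hz) Vale.Agent.P097.H593.wt_gauss hup hlo (L := L)
    (fun Q hQ hQK ε hε => hL Q hQ hQK ε hε) hQ hQK (fun h => zero_notMem_K2 k (hQK h)) hε
  refine ⟨δ, hδ, fun z hz hzQ => ?_⟩
  obtain ⟨c0, hc0, h5⟩ := h z hz hzQ
  exact ⟨c0, hc0, h5 c0 hc0 le_rfl⟩

/-- **row A4.5 (T-LEMMA), literal** -/
theorem tlem : Vale.Agent.P097.TC.Tlem := tlem_of t2i t3i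

end Vale.Agent.P097.H185.TL
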